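import Vale.Agent.P298.Main.Iface
import Vale.Agent.P298.H137.EndG
import Vale.Agent.P298.H379.Poly
import Vale.Agent.P298.H845.Cr1

/-!
# P298, row E-ASM (helper740): the endgame for the polynomial families `PFam`

`endStmt`: the block `EndStmt` of `Main/Iface.lean` from the outputs of the rows E1-LOW (helper714),
IRV (helper379) and the endgame in the language of germs (helper137).
-/

namespace Vale.Agent.P298.H740

open Filter Topology Metric MeasureTheory Set Vale.Agent.P298 Vale.Agent.P298.H379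
  Vale.Agent.P298.H766 Vale.Agent.P298.H967 Module Vale.Agent.P298.Main
open Vale.Agent.P298.H752 (GoodFam)

/-! ### The outputs which are used -/

/-- (row L1, helper379) lower bound of the colength of `I_N` -/
def LowOut : Prop := ∀ (f e e' : (Fin 3 → ℂ) → ℂ) (μ d : ℕ) (m : ℝ), Hol f → Hol e → Hol e' →
  f 0 = 0 → e 0 = 0 → e' 0 = 0 → (∀ i, pd i f 0 = 0) → Milnor f μ →
  (∃ᶠ z in 𝓝 (0 : ℂ), f ![0, 0, z] ≠ 0) → Colength ![f, e, e'] d → 0 < m →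
  (∀ k, k < m → 0 < k → InI f k e ∧ InI f k e') →
  (∃ C : ℝ, ∀ᶠ x in 𝓝 (0 : Fin 3 → ℂ), f x = 0 →
    ‖jac3 f e e' x‖ ≤ C * (max ‖e x‖ ‖e' x‖) ^ (2 + 1 / m)) →
  ∃ C : ℝ, ∀ N : ℝ, 1 ≤ N →
    d * N ^ 2 / (2 * m ^ 2) - C * N ≤ finrank ℂ (AnFun 3 ⧸ IK f N)

/-- (Lemma B, `H740.lemBOut`) the colength of `(f, e + c e', jac (f, e, e'))` for some `c` -/
def LemBOut : Prop := ∀ (f e e' : (Fin 3 → ℂ) → ℂ) (μ d : ℕ) (m : ℝ), Hol f → Hol e → Hol e' →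
  f 0 = 0 → e 0 = 0 → e' 0 = 0 → (∀ i, pd i f 0 = 0) → Milnor f μ →
  (∃ᶠ z in 𝓝 (0 : ℂ), f ![0, 0, z] ≠ 0) →
  Colength ![f, e, e'] d → 0 < m → (∀ k, k < m → 0 < k → InI f k e ∧ InI f k e') →
  ∃ (c : ℂ) (j : ℕ),
    Colength ![f, fun x => e x + c * e' x, jac3 f e e'] j ∧ (j : ℝ) ≤ (2 + 1 / m) * d

/-- (helper379, RV) for natural exponents -/
def RVNat : Prop := ∀ μ L : ℕ, ∃ d₁ : ℕ, ∀ d, d₁ ≤ d → ∀ (ε : ℝ) (P : PFam d ε ε),
  GoodFam μ L d ε (fun x t => P.f t x) → ∃ ε' : ℝ, 0 < ε' ∧ ∀ t ∈ ball (0 : ℂ) ε',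
    (∀ N : ℝ, 0 < N → Module.Finite ℂ (AnFun 3 ⧸ IK (P.f 0) N)) →
    (∀ N : ℝ, 0 < N → Module.Finite ℂ (AnFun 3 ⧸ IK (P.f t) N)) → ∀ n : ℕ, 1 ≤ n →
      finrank ℂ (AnFun 3 ⧸ IK (P.f 0) n) ≤ finrank ℂ (AnFun 3 ⧸ IK (P.f t) (n + 1))

/-- (helper379, RV) for the admissible exponents -/
def RVKK : Prop := ∀ μ L : ℕ, ∃ d₁ : ℕ, ∀ d, d₁ ≤ d → ∀ (ε : ℝ) (P : PFam d ε ε),
  GoodFam μ L d ε (fun x t => P.f t x) → ∃ ε' : ℝ, 0 < ε' ∧ ∀ t ∈ ball (0 : ℂ) ε',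
    (∀ N : ℝ, 0 < N → Module.Finite ℂ (AnFun 3 ⧸ IK (P.f 0) N)) →
    (∀ N : ℝ, 0 < N → Module.Finite ℂ (AnFun 3 ⧸ IK (P.f t) N)) → ∀ (e : ℕ) (k' k : ℝ),
      k' ∈ KK d e → k ∈ KK d e → k' < k →
      finrank ℂ (AnFun 3 ⧸ IK (P.f 0) k') ≤ finrank ℂ (AnFun 3 ⧸ IK (P.f t) k)

theorem rvNat_of_rvOut (h : RVOut) : RVNat := by
  intro μ L
  obtain ⟨d₁, h1⟩ := h μ L
  refine ⟨d₁, fun d hd ε P hG => ?_⟩
  obtain ⟨ε', hε', h2⟩ := h1 d hd ε P hG
  exact ⟨ε', hε', fun t ht _ _ n hn =>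
    (h2 t ht n (n + 1) (by exact_mod_cast hn) (by linarith)).2⟩

theorem finrank_mono {f : (Fin 3 → ℂ) → ℂ} {k' k : ℝ} (h0 : 0 < k') (h : k' ≤ k)
    (hfin : Module.Finite ℂ (AnFun 3 ⧸ IK f k)) :
    finrank ℂ (AnFun 3 ⧸ IK f k') ≤ finrank ℂ (AnFun 3 ⧸ IK f k) := by
  have hle : IK f k ≤ IK f k' := IK_anti h0 h
  have hsurj : Function.Surjective (Ideal.Quotient.factorₐ ℂ hle).toLinearMap :=
    Ideal.Quotient.factor_surjective hle
  exact LinearMap.finrank_le_finrank_of_surjective hsurj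

/-- between `n` and `n + 1` there are two exponents which are admissible for the same `e` -/
theorem exists_KK {d n : ℕ} (hd : 5 ≤ d) (hn : 1 ≤ n) : ∃ (e : ℕ) (k' k : ℝ), k' ∈ KK d e ∧
    k ∈ KK d e ∧ k' < k ∧ (n : ℝ) ≤ k' ∧ k ≤ n + 1 := by
  have hdR : (5 : ℝ) ≤ d := by exact_mod_cast hd
  have hnR : (1 : ℝ) ≤ n := by exact_mod_cast hn
  set e : ℕ := n * (d - 4) + 1 with he
  have heR : (e : ℝ) = n * ((d : ℝ) - 4) + 1 := by
    rw [he, Nat.cast_add, Nat.cast_mul, Nat.cast_sub (by omega)]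
    norm_num
  have h4 : (0 : ℝ) < (d : ℝ) - 4 := by linarith
  have h7 : (0 : ℝ) < (d : ℝ) - 7 / 2 := by linarith
  set a : ℝ := (e : ℝ) / (d - 7 / 2) with ha
  set b : ℝ := (e : ℝ) / (d - 4) with hb
  have hae : a * ((d : ℝ) - 7 / 2) = e := div_mul_cancel₀ _ h7.ne'
  have hbe : b * ((d : ℝ) - 4) = e := div_mul_cancel₀ _ h4.ne'
  have h1 : (n : ℝ) < b := by
    rw [hb, lt_div_iff₀ h4, heR]
    linarith
  have h2 : a < n + 1 := by
    rw [ha, div_lt_iff₀ h7, heR]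
    nlinarith
  have he0 : (0 : ℝ) < e := by
    rw [heR]
    positivity
  have h3 : a < b := div_lt_div_of_pos_left he0 h4 (by linarith)
  have hlt : max (n : ℝ) a < min ((n : ℝ) + 1) b :=
    max_lt (lt_min (by linarith) h1) (lt_min h2 h3)
  have hqa : ∃ q : ℚ, (q : ℝ) = a := ⟨(e : ℚ) / (d - 7 / 2), by rw [ha]; push_cast; ring⟩
  have hqb : ∃ q : ℚ, (q : ℝ) = b := ⟨(e : ℚ) / (d - 4), by rw [hb]; push_cast; ring⟩
  refine ⟨e, max n a, min (n + 1) b, ⟨hnR.trans (le_max_left _ _), ?_, ?_, ?_⟩,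
    ⟨hnR.trans ((le_max_left _ _).trans hlt.le), ?_, ?_, ?_⟩, hlt, le_max_left _ _,
    min_le_left _ _⟩
  · obtain ⟨q, hq⟩ := hqa
    exact ⟨max n q, by rw [Rat.cast_max, hq, Rat.cast_natCast]⟩
  · calc max (n : ℝ) a * (d - 4) ≤ b * (d - 4) :=
          mul_le_mul_of_nonneg_right (hlt.le.trans (min_le_right _ _)) h4.le
      _ = e := hbe
  · calc (e : ℝ) = a * (d - 7 / 2) := hae.symm
      _ ≤ max (n : ℝ) a * (d - 7 / 2) := mul_le_mul_of_nonneg_right (le_max_right _ _) h7.le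
  · obtain ⟨q, hq⟩ := hqb
    exact ⟨min (n + 1) q, by rw [Rat.cast_min, hq]; push_cast; rfl⟩
  · calc min ((n : ℝ) + 1) b * (d - 4) ≤ b * (d - 4) :=
          mul_le_mul_of_nonneg_right (min_le_right _ _) h4.le
      _ = e := hbe
  · calc (e : ℝ) = a * (d - 7 / 2) := hae.symm
      _ ≤ min ((n : ℝ) + 1) b * (d - 7 / 2) :=
          mul_le_mul_of_nonneg_right ((le_max_right _ _).trans hlt.le) h7.le

theorem rvNat_of_KK (h : RVKK) : RVNat := by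
  intro μ L
  obtain ⟨d₁, h1⟩ := h μ L
  refine ⟨d₁, fun d hd ε P hG => ?_⟩
  obtain ⟨ε', hε', h2⟩ := h1 d hd ε P hG
  refine ⟨ε', hε', fun t ht f0 ft n hn => ?_⟩
  obtain ⟨e, k', k, hk', hk, hlt, h3, h4⟩ := exists_KK P.hd hn
  have hn0 : (0 : ℝ) < n := by
    have : (1 : ℝ) ≤ n := by exact_mod_cast hn
    linarith
  calc finrank ℂ (AnFun 3 ⧸ IK (P.f 0) n) ≤ finrank ℂ (AnFun 3 ⧸ IK (P.f 0) k') :=
        finrank_mono hn0 h3 (f0 k' (hn0.trans_le h3))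
    _ ≤ finrank ℂ (AnFun 3 ⧸ IK (P.f t) k) := h2 t ht f0 ft e k' k hk' hk hlt
    _ ≤ finrank ℂ (AnFun 3 ⧸ IK (P.f t) (n + 1)) :=
        finrank_mono (by linarith) h4 (ft _ (by linarith))

/-! ### Elementary facts -/

theorem analyticAt_ev {d e : ℕ} {h : ℂ → Q d e} {ρ : ℝ} (hρ : 0 < ρ)
    (hh : DifferentiableOn ℂ h (ball 0 ρ)) :
    AnalyticAt ℂ (fun p : (Fin 3 → ℂ) × ℂ => ev (h p.2) p.1) (0, 0) := by
  have h1 : AnalyticAt ℂ h 0 := hh.analyticAt (isOpen_ball.mem_nhds (mem_ball_self hρ))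
  have h2 : ∀ α, AnalyticAt ℂ (fun t => h t α) 0 := fun α =>
    ((ContinuousLinearMap.proj (R := ℂ) (φ := fun _ : Mon d e => ℂ) α).analyticAt _).comp h1
  have h3 : ∀ α, AnalyticAt ℂ (fun p : (Fin 3 → ℂ) × ℂ => h p.2 α) (0, 0) := fun α =>
    AnalyticAt.comp_of_eq (g := fun t => h t α) (f := fun p : (Fin 3 → ℂ) × ℂ => p.2) (h2 α)
      analyticAt_snd rfl
  have h4 : ∀ i : Fin 3, AnalyticAt ℂ (fun p : (Fin 3 → ℂ) × ℂ => p.1 i) (0, 0) := fun i =>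
    ((ContinuousLinearMap.proj (R := ℂ) (φ := fun _ : Fin 3 => ℂ) i).analyticAt _).comp
      analyticAt_fst
  unfold ev
  refine Finset.analyticAt_fun_sum _ fun α _ => ?_
  exact (h3 α).mul (Finset.analyticAt_fun_prod _ fun i _ => (h4 i).pow _)

theorem frequently_z {d : ℕ} {R δ : ℝ} (F : PFam d R δ) :
    ∃ᶠ z in 𝓝 (0 : ℂ), F.f 0 ![0, 0, z] ≠ 0 := by
  classical
  have hd : d ≠ 0 := by
    have := F.hd
    omega
  set p : Polynomial ℂ := Polynomial.C (F.c 2) * Polynomial.X ^ d +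
    ∑ α : Mon d (d - 1), Polynomial.C (F.a 0 α * (0 ^ (α.1 0 : ℕ) * 0 ^ (α.1 1 : ℕ))) *
      Polynomial.X ^ (α.1 2 : ℕ) with hp
  have heval : ∀ z, p.eval z = F.f 0 ![0, 0, z] := by
    intro z
    have h1 : (∑ i, F.c i * (![0, 0, z] : Fin 3 → ℂ) i ^ d) = F.c 2 * z ^ d := by
      simp [Fin.sum_univ_three, hd]
    rw [hp, Polynomial.eval_add, Polynomial.eval_finsetSum]
    unfold PFam.f ev
    rw [h1]
    simp only [Polynomial.eval_mul, Polynomial.eval_C, Polynomial.eval_pow, Polynomial.eval_X,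
      Fin.prod_univ_three]
    congr 1
    refine Finset.sum_congr rfl fun α _ => ?_
    simp
    ring
  have hcoeff : p.coeff d = F.c 2 := by
    rw [hp, Polynomial.coeff_add, Polynomial.finsetSum_coeff, Polynomial.coeff_C_mul,
      Polynomial.coeff_X_pow, if_pos rfl, mul_one, Finset.sum_eq_zero, add_zero]
    intro α _
    rw [Polynomial.coeff_C_mul, Polynomial.coeff_X_pow, if_neg, mul_zero]
    have := α.2.2
    omega
  intro hcon
  have h1 : ∀ᶠ z in 𝓝 (0 : ℂ), p.IsRoot z := by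
    filter_upwards [hcon] with z hz
    rw [Polynomial.IsRoot, heval]
    exact not_not.1 hz
  have h2 : p = 0 := Polynomial.eq_zero_of_infinite_isRoot p (infinite_of_mem_nhds (0 : ℂ) h1)
  rw [h2, Polynomial.coeff_zero] at hcoeff
  exact F.hc 2 hcoeff.symm

theorem colength_shear {f e e' : (Fin 3 → ℂ) → ℂ} (hf : Hol f) (he : Hol e) (he' : Hol e') (c : ℂ)
    {A : ℕ} (h : Colength ![f, e, e'] A) : Colength ![f, fun x => e x + c * e' x, e'] A := by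
  have hc : Hol (fun x => c * e' x) := AnalyticAt.mul analyticAt_const he'
  have h1 : Hol (fun x => e x + c * e' x) := AnalyticAt.add he hc
  have hconst : Hol (fun _ : Fin 3 → ℂ => c) := analyticAt_const
  have hser : ser (fun x => e x + c * e' x) = ser e + MvPowerSeries.C c * ser e' := by
    rw [ser_add he hc, ser_mul hconst he', ser_const]
  have key : serIdeal ![f, fun x => e x + c * e' x, e'] = serIdeal ![f, e, e'] := by
    rw [H137.serIdeal_three, H137.serIdeal_three, H137.I3, H137.I3, hser]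
    have m1 : ser f ∈ Ideal.span {ser f, ser e} ⊔ Ideal.span {ser e'} :=
      Ideal.mem_sup_left (Ideal.subset_span (by simp))
    have m2 : ser e ∈ Ideal.span {ser f, ser e} ⊔ Ideal.span {ser e'} :=
      Ideal.mem_sup_left (Ideal.subset_span (by simp))
    have m3 : ser e' ∈ Ideal.span {ser f, ser e} ⊔ Ideal.span {ser e'} :=
      Ideal.mem_sup_right (Ideal.subset_span (by simp))
    have n1 : ser f ∈ Ideal.span {ser f, ser e + MvPowerSeries.C c * ser e'} ⊔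
        Ideal.span {ser e'} := Ideal.mem_sup_left (Ideal.subset_span (by simp))
    have n2 : ser e + MvPowerSeries.C c * ser e' ∈
        Ideal.span {ser f, ser e + MvPowerSeries.C c * ser e'} ⊔ Ideal.span {ser e'} :=
      Ideal.mem_sup_left (Ideal.subset_span (by simp))
    have n3 : ser e' ∈ Ideal.span {ser f, ser e + MvPowerSeries.C c * ser e'} ⊔
        Ideal.span {ser e'} := Ideal.mem_sup_right (Ideal.subset_span (by simp))
    apply le_antisymm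
    · refine sup_le (Ideal.span_le.2 ?_) (Ideal.span_le.2 ?_)
      · rintro x (rfl | rfl)
        · exact m1
        · exact add_mem m2 (Ideal.mul_mem_left _ _ m3)
      · rintro x rfl
        exact m3
    · refine sup_le (Ideal.span_le.2 ?_) (Ideal.span_le.2 ?_)
      · rintro x (rfl | rfl)
        · exact n1
        · have := sub_mem n2 (Ideal.mul_mem_left _ (MvPowerSeries.C c) n3)
          rwa [add_sub_cancel_right] at this
      · rintro x rfl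
        exact n3
  rw [colength_iff_ser (H137.hol_three hf h1 he'), key]
  exact (colength_iff_ser (H137.hol_three hf he he') A).1 h

theorem jac3_shear {d e : ℕ} (f : (Fin 3 → ℂ) → ℂ) (v v' : Q d e) (c : ℂ) :
    jac3 f (ev (v + c • v')) (ev v') = jac3 f (ev v) (ev v') := by
  have h1 : ∀ i x, pd i (ev (v + c • v')) x = pd i (ev v) x + c * pd i (ev v') x := by
    intro i x
    simp only [pd_ev, Pi.add_apply, Pi.smul_apply, smul_eq_mul, add_mul, mul_assoc,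
      Finset.sum_add_distrib, Finset.mul_sum]
  rw [H137.jac3_eq, H137.jac3_eq]
  funext x
  simp only [minor2, h1]
  ring

theorem inI_const_mul {f e : (Fin 3 → ℂ) → ℂ} {k : ℝ} (hk : 0 < k) (h : InI f k e) (c : ℂ) :
    InI f k (fun x => c * e x) := inI_mul_left hk h (c := fun _ => c) analyticAt_const

/-- finiteness of the colengths of the ideals `I_N(f_t)` for small `t`, uniformly in `N` -/
theorem finite_near {r : ℝ} (hr : 0 < r) {F : (Fin 3 → ℂ) → ℂ → ℂ} (hF : IsHolFamily r F) {μ : ℕ}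
    (hμ : ∀ t ∈ ball (0 : ℂ) r, Milnor (F · t) μ) (hμ0 : μ ≠ 0) {E E' : (Fin 3 → ℂ) → ℂ → ℂ}
    {k : ℝ} (hk : 0 < k)
    (aE : AnalyticAt ℂ (fun p : (Fin 3 → ℂ) × ℂ => E p.1 p.2) (0, 0))
    (aE' : AnalyticAt ℂ (fun p : (Fin 3 → ℂ) × ℂ => E' p.1 p.2) (0, 0)) {D B : ℕ}
    (hD : Colength ![(F · 0), (E · 0), (E' · 0)] D)
    (hB : Colength ![(F · 0), (E · 0), jac3 (F · 0) (E · 0) (E' · 0)] B)
    (hI : ∀ᶠ t in 𝓝 (0 : ℂ), InI (F · t) k (E · t) ∧ InI (F · t) k (E' · t)) :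
    ∀ᶠ t in 𝓝 (0 : ℂ), ∀ N : ℝ, 0 < N → Module.Finite ℂ (AnFun 3 ⧸ IK (F · t) N) := by
  have h0r : (0 : ℂ) ∈ ball (0 : ℂ) r := mem_ball_self hr
  have hnr : ∀ᶠ t in 𝓝 (0 : ℂ), t ∈ ball (0 : ℂ) r := isOpen_ball.mem_nhds h0r
  have aF := (hF 0 h0r).1
  have uD := H137.usc_three (G₁ := F) (G₂ := E) (G₃ := E') aF aE aE' hD
  have uB := H137.usc_three (G₁ := F) (G₂ := E)
    (G₃ := fun x t => jac3 (F · t) (E · t) (E' · t) x) aF aE (H137.analyticAt_jac3 aF aE aE') hB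
  filter_upwards [hnr, hI, uD, uB] with t ht hIt uDt uBt N hN
  obtain ⟨Dt, -, hDt⟩ := uDt
  obtain ⟨Bt, -, hBt⟩ := uBt
  have hft : Hol (F · t) := H137.hol_slice (hF t ht).1
  have htop : ∀ g, InI (F · t) k g → g 0 ≠ 0 → Module.Finite ℂ (AnFun 3 ⧸ IK (F · t) N) := by
    intro g hg hg0
    have h1 := H137.IK_eq_top hft hk hN hg hg0
    have : Subsingleton (AnFun 3 ⧸ IK (F · t) N) := by
      rw [h1]
      exact Ideal.Quotient.subsingleton_iff.2 rfl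
    refine ⟨⟨∅, eq_top_iff.2 fun x _ => ?_⟩⟩
    rw [Subsingleton.elim x 0]
    exact zero_mem _
  by_cases e0 : E 0 t = 0
  swap
  · exact htop _ hIt.1 e0
  by_cases e0' : E' 0 t = 0
  swap
  · exact htop _ hIt.2 e0'
  exact (H137.one_surf hft hIt.1.1 hIt.2.1 (hF t ht).2 e0 e0'
    (H137.pd_zero_of_milnor hft (hμ t ht) hμ0) hk (fun k' h0 h1 => inI_mono hIt.1 h0 h1.le)
    (fun k' h0 h1 => inI_mono hIt.2 h0 h1.le) hDt hBt hN).1

/-- rational exponents close to `m` are admissible for `Q d (m (d - 4))` -/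
theorem mem_KK {d m : ℕ} (hd : 5 ≤ d) {k : ℝ} (h1 : 1 ≤ k) (hq : ∃ q : ℚ, (q : ℝ) = k)
    (hkm : k < m) (hk : m * ((d : ℝ) - 4) / (d - 7 / 2) < k) : k ∈ KK d (m * (d - 4)) := by
  have hd' : (5 : ℝ) ≤ d := by exact_mod_cast hd
  have hcast : ((m * (d - 4) : ℕ) : ℝ) = m * ((d : ℝ) - 4) := by
    rw [Nat.cast_mul, Nat.cast_sub (by omega)]
    norm_num
  refine ⟨h1, hq, ?_, ?_⟩
  · rw [hcast]
    exact mul_le_mul_of_nonneg_right hkm.le (by linarith)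
  · rw [hcast]
    rw [div_lt_iff₀ (by linarith)] at hk
    exact hk.le

/-- **Endgame for `PFam`.** -/
theorem endStmt (hLow : LowOut) (hB : LemBOut) (hRV : RVNat) (hExt : ExtOut) :
    ∀ μ L : ℕ, ∃ d₁ : ℕ, ∀ d, d₁ ≤ d → ∀ (ε : ℝ) (P : PFam d ε ε),
      GoodFam μ L d ε (fun x t => P.f t x) → ∀ (m A : ℕ) (v v' : Q d (m * (d - 4))), 2 ≤ m →
        E1Data (P.f 0) m A (ev v) (ev v') → ∃ r', TopRightTrivial r' fun x t => P.f t x := by
  intro μ L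
  obtain ⟨d₁, h1⟩ := hRV μ L
  obtain ⟨d₂, h2⟩ := hExt μ L
  refine ⟨max d₁ d₂, fun d hd ε P hG m A v v' hm hE => ⟨ε, ?_⟩⟩
  obtain ⟨ε₁, hε₁, hrv⟩ := h1 d ((le_max_left _ _).trans hd) ε P hG
  obtain ⟨ε₂, hε₂, hext⟩ := h2 d ((le_max_right _ _).trans hd) ε P hG
  have h0ε : (0 : ℂ) ∈ ball (0 : ℂ) ε := mem_ball_self hG.pos
  -- the case `μ = 0`
  by_cases hcrit : ∀ i, pd i (P.f 0) 0 = 0
  swap
  · push Not at hcrit
    obtain ⟨i, hi⟩ := hcrit
    exact H845.cr1 hG.pos hG.hol i hi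
  have hM : ∀ t ∈ ball (0 : ℂ) ε, Milnor (P.f t) μ := hG.milnor
  have hμ0 : μ ≠ 0 := H845.milnor_ne_zero (hM 0 h0ε) hcrit
  have hf : Hol (P.f 0) := H137.hol_slice (F := fun x t => P.f t x) (hG.hol 0 h0ε).1
  have f0 : P.f 0 0 = 0 := (hG.hol 0 h0ε).2
  have hmR : (2 : ℝ) ≤ m := by exact_mod_cast hm
  have hm0 : (0 : ℝ) < m := by linarith
  have hz := frequently_z P
  have hII : ∀ k : ℝ, k < m → 0 < k → InI (P.f 0) k (ev v) ∧ InI (P.f 0) k (ev v') :=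
    fun k hk hk0 => ⟨hE.inI k hk0 hk, hE.inI' k hk0 hk⟩
  -- the bound of the Jacobian
  have hJ : ∃ C : ℝ, ∀ᶠ x in 𝓝 (0 : Fin 3 → ℂ), P.f 0 x = 0 →
      ‖jac3 (P.f 0) (ev v) (ev v') x‖ ≤ C * (max ‖ev v x‖ ‖ev v' x‖) ^ (2 + 1 / (m : ℝ)) := by
    obtain ⟨C, hC⟩ := hE.jac
    refine ⟨(max C 0) ^ (1 / (m : ℝ)), ?_⟩
    filter_upwards [hC] with x hx hfx
    have hx' := hx hfx
    set M : ℝ := max ‖ev v x‖ ‖ev v' x‖ with hMdef
    have hM0 : 0 ≤ M := (norm_nonneg _).trans (le_max_left _ _)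
    have h3 : ‖jac3 (P.f 0) (ev v) (ev v') x‖ ^ m ≤ max C 0 * M ^ (2 * m + 1) :=
      hx'.trans (mul_le_mul_of_nonneg_right (le_max_left _ _) (by positivity))
    have h4 : ‖jac3 (P.f 0) (ev v) (ev v') x‖ =
        (‖jac3 (P.f 0) (ev v) (ev v') x‖ ^ m) ^ (1 / (m : ℝ)) := by
      rw [← Real.rpow_natCast, ← Real.rpow_mul (norm_nonneg _), mul_one_div_cancel hm0.ne',
        Real.rpow_one]
    rw [h4]
    refine (Real.rpow_le_rpow (by positivity) h3 (by positivity)).trans (le_of_eq ?_)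
    rw [Real.mul_rpow (le_max_right _ _) (by positivity)]
    congr 1
    rw [← Real.rpow_natCast M, ← Real.rpow_mul hM0]
    congr 1
    push_cast
    field_simp
  obtain ⟨C, hC⟩ := hLow (P.f 0) (ev v) (ev v') μ A m hf hE.hol hE.hol' f0 hE.zero hE.zero'
    hcrit (hM 0 h0ε) hz hE.col hm0 hII hJ
  obtain ⟨c, j, hj, hjle⟩ := hB (P.f 0) (ev v) (ev v') μ A m hf hE.hol hE.hol' f0 hE.zero
    hE.zero' hcrit (hM 0 h0ε) hz hE.col hm0 hII
  -- the new pair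
  have hev : (fun x => ev v x + c * ev v' x) = ev (v + c • v') := by
    funext x
    rw [ev_add, ev_smul]
  have hD : Colength ![P.f 0, ev (v + c • v'), ev v'] A := by
    rw [← hev]
    exact colength_shear hf hE.hol hE.hol' c hE.col
  have hj' : Colength ![P.f 0, ev (v + c • v'), jac3 (P.f 0) (ev (v + c • v')) (ev v')] j := by
    rw [jac3_shear, ← hev]
    exact hj
  have hI1 : ∀ k : ℝ, 0 < k → k < m → InI (P.f 0) k (ev (v + c • v')) := by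
    intro k hk0 hk
    rw [← hev]
    exact inI_add H373.areaI hk0 hf (hE.inI k hk0 hk) (inI_const_mul hk0 (hE.inI' k hk0 hk) c)
  -- the extension for every rational `k` close to `m`
  have hkey : ∀ k : ℝ, 1 ≤ k → (∃ q : ℚ, (q : ℝ) = k) → k < m →
      m * ((d : ℝ) - 4) / (d - 7 / 2) < k → ∃ E E' : (Fin 3 → ℂ) → ℂ → ℂ,
      AnalyticAt ℂ (fun p : (Fin 3 → ℂ) × ℂ => E p.1 p.2) (0, 0) ∧
      AnalyticAt ℂ (fun p : (Fin 3 → ℂ) × ℂ => E' p.1 p.2) (0, 0) ∧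
      (E · 0) = ev (v + c • v') ∧ (E' · 0) = ev v' ∧
      ∀ᶠ t in 𝓝 (0 : ℂ), InI (P.f t) k (E · t) ∧ InI (P.f t) k (E' · t) := by
    intro k hk1 hkq hkm hkl
    obtain ⟨q, hq1, hq2⟩ := exists_rat_btwn hkm
    have hK := mem_KK P.hd hk1 hkq hkm hkl
    have hK' := mem_KK P.hd (hk1.trans hq1.le) ⟨q, rfl⟩ hq2 (hkl.trans hq1)
    obtain ⟨h, hh1, hh2, hh3⟩ := hext _ k q hK hK' hq1 (v + c • v') (hI1 q (by linarith) hq2)
    obtain ⟨h', hh1', hh2', hh3'⟩ := hext _ k q hK hK' hq1 v' (hE.inI' q (by linarith) hq2)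
    refine ⟨fun x t => ev (h t) x, fun x t => ev (h' t) x, analyticAt_ev hε₂ hh1,
      analyticAt_ev hε₂ hh1', ?_, ?_, ?_⟩
    · funext x
      change ev (h 0) x = _
      rw [hh2]
    · funext x
      change ev (h' 0) x = _
      rw [hh2']
    · filter_upwards [isOpen_ball.mem_nhds (mem_ball_self hε₂)] with t ht
      exact ⟨hh3 t ht, hh3' t ht⟩
  have hd5 : (5 : ℝ) ≤ d := by exact_mod_cast P.hd
  have hlt : m * ((d : ℝ) - 4) / (d - 7 / 2) < m := by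
    rw [div_lt_iff₀ (by linarith)]
    nlinarith
  have hfreq : ∃ᶠ k in 𝓝[<] (m : ℝ), ∃ E E' : (Fin 3 → ℂ) → ℂ → ℂ,
      AnalyticAt ℂ (fun p : (Fin 3 → ℂ) × ℂ => E p.1 p.2) (0, 0) ∧
      AnalyticAt ℂ (fun p : (Fin 3 → ℂ) × ℂ => E' p.1 p.2) (0, 0) ∧
      (E · 0) = ev (v + c • v') ∧ (E' · 0) = ev v' ∧
      ∀ᶠ t in 𝓝 (0 : ℂ), InI (P.f t) k (E · t) ∧ InI (P.f t) k (E' · t) := by
    rw [frequently_iff]
    intro U hU
    obtain ⟨l, hl, hU'⟩ := mem_nhdsLT_iff_exists_Ioo_subset.1 hU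
    have hl' : l < m := hl
    obtain ⟨q, hq1, hq2⟩ := exists_rat_btwn
      (max_lt hl' (max_lt hlt (by linarith : (1 : ℝ) < m)))
    refine ⟨q, hU' ⟨(le_max_left _ _).trans_lt hq1, hq2⟩, ?_⟩
    have h3 := (le_max_right _ _).trans_lt hq1
    exact hkey q ((le_max_right _ _).trans_lt h3).le ⟨q, rfl⟩ hq2
      ((le_max_left _ _).trans_lt h3)
  -- finiteness for small `t`
  have hfin : ∀ᶠ t in 𝓝 (0 : ℂ), ∀ N : ℝ, 0 < N → Module.Finite ℂ (AnFun 3 ⧸ IK (P.f t) N) := by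
    have h3 : ∀ᶠ k in 𝓝[<] (m : ℝ), 0 < k := (lt_mem_nhds hm0).filter_mono nhdsWithin_le_nhds
    obtain ⟨k, ⟨E, E', aE, aE', hE0, hE0', hI⟩, hk0⟩ := (hfreq.and_eventually h3).exists
    exact finite_near hG.pos hG.hol hM hμ0 hk0 aE aE' (by rw [hE0, hE0']; exact hD)
      (by rw [hE0, hE0']; exact hj') hI
  have e0 : ev (v + c • v') 0 = 0 := by
    rw [← hev]
    simp only [hE.zero, hE.zero', mul_zero, add_zero]
  have hmB : (m : ℝ) * j ≤ (2 * m + 1) * A := by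
    have h3 := mul_le_mul_of_nonneg_left hjle hm0.le
    have h4 : (m : ℝ) * ((2 + 1 / (m : ℝ)) * A) = (2 * m + 1) * A := by
      field_simp
    rwa [h4] at h3
  refine H137.endgame (F := fun x t => P.f t x) hG.pos hG.hol hM hμ0 e0 hE.zero' hD hj' hm0 hmB
    ⟨C, hC⟩ ?_ hfreq
  filter_upwards [hfin, isOpen_ball.mem_nhds (mem_ball_self hε₁)] with t ht1 ht2 n hn
  exact hrv t ht2 hfin.self_of_nhds ht1 n hn

end Vale.Agent.P298.H740
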