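import Vale.Agent.P298.H740.LB2
import Vale.Agent.P298.H373.Inst
import Vale.Agent.P298.H941.Final
import Vale.Agent.P298.H740.End

/-!
# P298, Lemma B (helper740), part 3: almost every curve `e = c e'` on the surface
-/

namespace Vale.Agent.P298.H740

open Filter Topology Metric MeasureTheory Set Vale.Agent.P298 Vale.Agent.P298.H379
open scoped ENNReal NNReal

theorem ae_lines {f e e' : (Fin 3 → ℂ) → ℂ} (hf : Hol f) (he : Hol e) {k : ℝ}
    (hI : InI f k e') : ∀ᵐ c : ℂ, ∃ Γ : ℂ → ℝ≥0∞, ∫⁻ t, ‖t‖ₑ ^ 2 * Γ t < ∞ ∧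
      ∀ᶠ x in 𝓝 (0 : Fin 3 → ℂ), f x = 0 → pd 2 f x ≠ 0 → jac3 f e e' x ≠ 0 → e x = e' x * c →
        ‖e' x‖ₑ ^ (2 / k) / ‖jac3 f e e' x‖ₑ ^ 2 ≤ Γ (e' x) := by
  obtain ⟨he', r₀, hr₀, hN⟩ := hI
  obtain ⟨r₁, hr₁, h1⟩ := H967.exists_ball hf
  obtain ⟨r₂, hr₂, h2⟩ := H967.exists_ball he
  obtain ⟨r₃, hr₃, h3⟩ := H967.exists_ball he'
  set r : ℝ := min (min r₀ r₁) (min r₂ r₃) with hr
  have hrpos : 0 < r := lt_min (lt_min hr₀ hr₁) (lt_min hr₂ hr₃)
  have k0 : r ≤ r₀ := (min_le_left _ _).trans (min_le_left _ _)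
  have k1 : r ≤ r₁ := (min_le_left _ _).trans (min_le_right _ _)
  have k2 : r ≤ r₂ := (min_le_right _ _).trans (min_le_left _ _)
  have k3 : r ≤ r₃ := (min_le_right _ _).trans (min_le_right _ _)
  set Ω : Set (Fin 3 → ℂ) := ball 0 r with hΩd
  have hΩ : IsOpen Ω := isOpen_ball
  have af : AnalyticOnNhd ℂ f Ω := fun x hx => h1 x (ball_subset_ball k1 hx)
  have ae : AnalyticOnNhd ℂ e Ω := fun x hx => h2 x (ball_subset_ball k2 hx)
  have ae' : AnalyticOnNhd ℂ e' Ω := fun x hx => h3 x (ball_subset_ball k3 hx)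
  set φ : (Fin 3 → ℂ) → ℝ≥0∞ := fun x =>
    Ω.indicator (fun x => ‖e' x‖ₑ ^ (2 / k)) x / ‖jac3 f e e' x‖ₑ ^ 2 with hφd
  have hφm : Measurable φ := by
    refine Measurable.div ?_ ((H373.measurable_jac3 f e e').enorm.pow_const 2)
    exact H967.measurable_ind (F := fun z : ℂ => ‖z‖ₑ ^ (2 / k)) ae'.continuousOn
      (measurable_enorm.pow_const _)
  have hφ0 : ∀ x, x ∉ Ω → φ x = 0 := by
    intro x hx
    rw [hφd]
    simp only [indicator_of_notMem hx, ENNReal.zero_div]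
  set F : ℂ × ℂ → ℝ≥0∞ := fun q => ∑' x : H373.Fib f e e' Ω 0 q, φ x with hF
  have hFm : Measurable F := by
    have h4 := (H373.area_fsum hΩ af ae ae' (i := 0) (j := 1) (k := 2) (by decide) (by decide)
      (by decide) 0 hφm).1
    have h5 : F = H98.fsum (fun x => (e x, e' x))
        (H373.Reg f Ω 0 2 ∩ {x | jac3 f e e' x ≠ 0}) φ := by
      funext q
      exact (H373.fsum_eq_tsum_Fib φ q).symm
    rw [h5]
    exact h4
  have hFi : ∫⁻ q, F q < ∞ := by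
    rw [hF, ← H373.nu_area hΩ af ae ae' 0 hφm hφ0]
    have h4 : nu f 0 (fun x => ‖jac3 f e e' x‖ₑ ^ 2 * φ x) ≤ Nloc f r k e' := by
      refine H967.nu_mono fun x _ _ => ?_
      rw [hφd]
      exact ENNReal.mul_div_le
    exact (h4.trans (H967.Nloc_anti k0)).trans_lt hN
  filter_upwards [ae_line hFm hFi] with c hc
  refine ⟨fun t => F (t * c, t), hc, ?_⟩
  filter_upwards [ball_mem_nhds (0 : Fin 3 → ℂ) hrpos] with x hx hx1 hx2 hx3 hx4
  have hmem : x ∈ H373.Fib f e e' Ω 0 (e' x * c, e' x) := ⟨hx, hx1, hx4, rfl, hx2, hx3⟩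
  have h4 : φ x ≤ F (e' x * c, e' x) :=
    ENNReal.le_tsum (f := fun y : H373.Fib f e e' Ω 0 (e' x * c, e' x) => φ y) ⟨x, hmem⟩
  refine le_trans (le_of_eq ?_) h4
  have hxΩ : x ∈ Ω := hx
  rw [hφd]
  simp only [indicator_of_mem hxΩ]

/-- A null set of `ℂ × ℂ` meets almost every line in a null set. -/
theorem ae_ae_line {P : ℂ × ℂ → Prop} (h : ∀ᵐ q : ℂ × ℂ, P q) :
    ∀ᵐ c : ℂ, ∀ᵐ t : ℂ, P (t * c, t) := by
  have h0 : volume {q : ℂ × ℂ | ¬ P q} = 0 := h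
  set Z := toMeasurable volume {q : ℂ × ℂ | ¬ P q} with hZ
  have hZm : MeasurableSet Z := measurableSet_toMeasurable _ _
  have hZ0 : volume Z = 0 := by rw [hZ, measure_toMeasurable, h0]
  have hF : Measurable (Z.indicator fun _ => (∞ : ℝ≥0∞)) := measurable_const.indicator hZm
  have hi : ∫⁻ q, Z.indicator (fun _ => (∞ : ℝ≥0∞)) q < ∞ := by
    rw [lintegral_indicator hZm, setLIntegral_const, hZ0, mul_zero]
    exact ENNReal.zero_lt_top
  filter_upwards [ae_line hF hi] with c hc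
  have hm : Measurable fun t : ℂ => ‖t‖ₑ ^ 2 * Z.indicator (fun _ => (∞ : ℝ≥0∞)) (t * c, t) := by
    refine (measurable_enorm.pow_const 2).mul (hF.comp ?_)
    exact (measurable_id.mul_const c).prodMk measurable_id
  filter_upwards [ae_lt_top hm hc.ne, Measure.ae_ne volume (0 : ℂ)] with t ht ht0
  by_contra hP
  have h1 : (t * c, t) ∈ Z := subset_toMeasurable _ _ hP
  rw [indicator_of_mem h1, ENNReal.mul_top] at ht
  · exact lt_irrefl _ ht
  · simpa using ht0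

/-- The curves `e = c e'` on the surface avoid an exceptional set of the surface. -/
theorem ae_generic {f e e' G : (Fin 3 → ℂ) → ℂ} (hf : Hol f) (he : Hol e) (he' : Hol e')
    (hG : Hol G) (e0' : e' 0 = 0) {D : ℕ} (hD : Colength ![f, e, e'] D) {r : ℝ} (hr : 0 < r)
    (hN : ∀ᵐ q : ℂ × ℂ, ∀ x ∈ ball (0 : Fin 3 → ℂ) r, x ≠ 0 → f x = 0 → e x = q.1 →
      e' x = q.2 → G x ≠ 0) :
    ∀ᵐ c : ℂ, ∀ᶠ x in 𝓝 (0 : Fin 3 → ℂ), f x = 0 → e x = e' x * c → x ≠ 0 → G x ≠ 0 := by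
  filter_upwards [ae_ae_line hN] with c hc
  have hec : Hol (fun x => e x + -c * e' x) :=
    AnalyticAt.add he (AnalyticAt.mul analyticAt_const he')
  have hD' : Colength ![f, fun x => e x + -c * e' x, e'] D := colength_shear hf he he' (-c) hD
  have hfin := ((H941.colength_iff (H941.ana3 hf hec he') D).1 hD').1
  obtain ⟨N, ν, ψ, A⟩ := H941.exists_arcSys hf hec he' e0'
    (H941.finMap_of_finite (h0 := e0') hfin)
  have hψ : ∀ i, ∀ᶠ s in 𝓝[≠] (0 : ℂ), G (ψ i s) ≠ 0 := by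
    intro i
    have hGψ : AnalyticAt ℂ (fun s => G (ψ i s)) 0 := AnalyticAt.comp_of_eq hG (A.an i) (A.zero i)
    rcases hGψ.eventually_eq_zero_or_eventually_ne_zero with h1 | h1
    swap
    · exact h1
    exfalso
    have h2 : ∀ᶠ s in 𝓝 (0 : ℂ), ψ i s ∈ ball (0 : Fin 3 → ℂ) r := by
      refine (A.an i).continuousAt.eventually_mem ?_
      rw [A.zero i]
      exact ball_mem_nhds _ hr
    obtain ⟨δ, hδ, hδA⟩ := Metric.eventually_nhds_iff_ball.1 (h1.and (h2.and (A.mem i)))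
    have hδN : 0 < δ ^ N := pow_pos hδ N
    have h3 : ∀ᵐ t : ℂ, t ∉ ball (0 : ℂ) (δ ^ N) := by
      filter_upwards [hc, Measure.ae_ne volume (0 : ℂ)] with t ht ht0 htb
      obtain ⟨s, rfl⟩ := H941.exists_pow_eq A.pos t
      rw [mem_ball_zero_iff, norm_pow] at htb
      have hs : s ∈ ball (0 : ℂ) δ :=
        mem_ball_zero_iff.2 (lt_of_pow_lt_pow_left₀ N hδ.le htb)
      obtain ⟨g1, g2, g3, g4, g5⟩ := hδA s hs
      have hne : ψ i s ≠ 0 := by
        intro h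
        rw [h, e0'] at g5
        exact ht0 g5.symm
      refine ht (ψ i s) g2 hne g3 ?_ g5 g1
      have g6 : e (ψ i s) + -c * e' (ψ i s) = 0 := g4
      rw [g5] at g6
      linear_combination g6
    have h4 : volume (ball (0 : ℂ) (δ ^ N)) = 0 := by
      have h5 := measure_eq_zero_iff_ae_notMem.2 h3
      exact h5
    exact (measure_ball_pos volume (0 : ℂ) hδN).ne' h4
  have h5 := H941.arc_forall A he' e0' (Q := fun x => G x ≠ 0) hψ
  filter_upwards [h5] with x hx hx1 hx2 hx3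
  refine hx hx1 ?_ hx3
  rw [hx2]
  ring

end Vale.Agent.P298.H740
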