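import Mathlib

/-!
# P298 (helper740): normal form of a holomorphic function of one variable
-/

namespace Vale.Agent.P298.H740

open Filter Topology Metric Set

/-- A holomorphic function with a zero of order `n` is the `n`-th power of a coordinate. -/
theorem normal_form {h : ℂ → ℂ} (hh : AnalyticAt ℂ h 0) {n : ℕ}
    (hn : analyticOrderAt h 0 = n) (n0 : n ≠ 0) : ∃ θ : ℂ → ℂ, AnalyticAt ℂ θ 0 ∧ θ 0 = 0 ∧
      (∀ᶠ s in 𝓝 (0 : ℂ), h (θ s) = s ^ n) ∧ ∃ δ > 0, InjOn θ (ball (0 : ℂ) δ) := by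
  obtain ⟨g, hg, hg0, hgh⟩ := (hh.analyticOrderAt_eq_natCast).1 hn
  obtain ⟨b, hb⟩ := IsAlgClosed.exists_pow_nat_eq (g 0) (Nat.pos_of_ne_zero n0)
  have hb0 : b ≠ 0 := by
    rintro rfl
    rw [zero_pow n0] at hb
    exact hg0 hb.symm
  set w : ℂ → ℂ := fun s => b * (g s / g 0) ^ ((n : ℂ)⁻¹) with hw
  have hwa : AnalyticAt ℂ w 0 := by
    refine analyticAt_const.mul ((hg.div_const).cpow analyticAt_const ?_)
    rw [div_self hg0]
    exact Complex.one_mem_slitPlane
  have hw0 : w 0 = b := by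
    rw [hw]
    simp only [div_self hg0, Complex.one_cpow, mul_one]
  have hwn : ∀ s, w s ^ n = g s := by
    intro s
    rw [hw]
    simp only [mul_pow, Complex.cpow_nat_inv_pow _ n0, hb]
    field_simp
  set σ : ℂ → ℂ := fun s => s * w s with hσ
  have hσa : AnalyticAt ℂ σ 0 := analyticAt_id.mul hwa
  have hσ0 : σ 0 = 0 := by simp [hσ]
  have hd : HasDerivAt σ b 0 := by
    have h1 := (hasDerivAt_id (0 : ℂ)).mul hwa.differentiableAt.hasDerivAt
    simp only [id, one_mul, zero_mul, add_zero] at h1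
    rw [hw0] at h1
    exact h1
  have hdne : deriv σ 0 ≠ 0 := by rw [hd.deriv]; exact hb0
  have hst : HasStrictDerivAt σ (deriv σ 0) 0 := hσa.hasStrictDerivAt
  set θ : ℂ → ℂ := hst.localInverse σ (deriv σ 0) 0 hdne with hθ
  have hθa : AnalyticAt ℂ θ 0 := by
    have h1 := hσa.analyticAt_localInverse hdne
    rwa [hσ0] at h1
  have hr : ∀ᶠ s in 𝓝 (0 : ℂ), σ (θ s) = s := by
    have h1 := hst.eventually_right_inverse hdne
    rwa [hσ0] at h1
  have hθ0 : θ 0 = 0 := by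
    have h1 := (hst.eventually_left_inverse hdne).self_of_nhds
    rwa [hσ0] at h1
  have htend : Tendsto θ (𝓝 0) (𝓝 0) := by
    have := hθa.continuousAt.tendsto
    rwa [hθ0] at this
  refine ⟨θ, hθa, hθ0, ?_, ?_⟩
  · filter_upwards [hr, htend.eventually hgh] with s hs1 hs2
    rw [hs2, sub_zero, smul_eq_mul, ← hwn, ← mul_pow]
    change σ (θ s) ^ n = s ^ n
    rw [hs1]
  · obtain ⟨δ, hδ, hδA⟩ := Metric.eventually_nhds_iff_ball.1 hr
    refine ⟨δ, hδ, fun x hx y hy hxy => ?_⟩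
    rw [← hδA x hx, ← hδA y hy, hxy]

end Vale.Agent.P298.H740
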