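import Vale.Agent.P298.H740.LB5
import Vale.Agent.P298.H740.LA1

/-!
# P298 (helper740), tools for the lower bound of the colength: the curves `e = c e'` on the
surface, their arcs, and the integrals over them
-/

namespace Vale.Agent.P298.H740

open Filter Topology Metric MeasureTheory Set Vale.Agent.P298 Vale.Agent.P298.H379
open scoped ENNReal NNReal

/-- Integrals over the surface are integrals over almost all curves `e = c e'`. -/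
theorem ae_line_sum {f e e' : (Fin 3 → ℂ) → ℂ} {r : ℝ}
    (af : AnalyticOnNhd ℂ f (ball (0 : Fin 3 → ℂ) r))
    (ae : AnalyticOnNhd ℂ e (ball (0 : Fin 3 → ℂ) r))
    (ae' : AnalyticOnNhd ℂ e' (ball (0 : Fin 3 → ℂ) r)) {φ : (Fin 3 → ℂ) → ℝ≥0∞}
    (hφm : Measurable φ) (hφ0 : ∀ x, x ∉ ball (0 : Fin 3 → ℂ) r → φ x = 0)
    (hfin : nu f 0 (fun x => ‖jac3 f e e' x‖ₑ ^ 2 * φ x) < ∞) :
    ∀ᵐ c : ℂ, ∫⁻ t : ℂ, ‖t‖ₑ ^ 2 *
      ∑' x : H373.Fib f e e' (ball (0 : Fin 3 → ℂ) r) 0 (t * c, t), φ x < ∞ := by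
  have hΩ : IsOpen (ball (0 : Fin 3 → ℂ) r) := isOpen_ball
  set F : ℂ × ℂ → ℝ≥0∞ := fun q => ∑' x : H373.Fib f e e' (ball 0 r) 0 q, φ x with hF
  have hFm : Measurable F := by
    have h4 := (H373.area_fsum hΩ af ae ae' (i := 0) (j := 1) (k := 2) (by decide) (by decide)
      (by decide) 0 hφm).1
    have h5 : F = H98.fsum (fun x => (e x, e' x))
        (H373.Reg f (ball 0 r) 0 2 ∩ {x | jac3 f e e' x ≠ 0}) φ := by
      funext q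
      exact (H373.fsum_eq_tsum_Fib φ q).symm
    rw [h5]
    exact h4
  have hFi : ∫⁻ q, F q < ∞ := by
    rw [hF, ← H373.nu_area hΩ af ae ae' 0 hφm hφ0]
    exact hfin
  exact ae_line hFm hFi

section

variable {f e e' : (Fin 3 → ℂ) → ℂ} {μ D : ℕ}

/-- For almost every `c` the functions `jac (f, e, e')` and `∂₃ f` do not vanish on the curve
`e = c e'` on the surface outside the origin. -/
theorem ae_good (hf : Hol f) (he : Hol e) (he' : Hol e') (e0' : e' 0 = 0)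
    (d0 : ∀ i, pd i f 0 = 0) (hμ : Milnor f μ) (hz : ∃ᶠ z in 𝓝 (0 : ℂ), f ![0, 0, z] ≠ 0)
    (hD : Colength ![f, e, e'] D) :
    ∀ᵐ c : ℂ, (∀ᶠ x in 𝓝 (0 : Fin 3 → ℂ), f x = 0 → e x = e' x * c → x ≠ 0 →
      jac3 f e e' x ≠ 0) ∧ ∀ᶠ x in 𝓝 (0 : Fin 3 → ℂ), f x = 0 → e x = e' x * c → x ≠ 0 →
      pd 2 f x ≠ 0 := by
  have hJ : Hol (jac3 f e e') := H137.hol_jac3 hf he he'
  have hP : Hol (pd 2 f) := H967.hol_pd3 hf 2
  obtain ⟨r₁, hr₁, h1⟩ := H967.exists_ball hf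
  obtain ⟨r₂, hr₂, h2⟩ := H967.exists_ball he
  obtain ⟨r₃, hr₃, h3⟩ := H967.exists_ball he'
  obtain ⟨r₄, hr₄, h4⟩ := exists_noVert hf hz
  obtain ⟨r₅, hr₅, h5⟩ := crit_isolated hf d0 hμ
  obtain ⟨r, hr, hrr⟩ : ∃ r : ℝ, 0 < r ∧ r ≤ r₁ ∧ r ≤ r₂ ∧ r ≤ r₃ ∧ r ≤ r₄ ∧ r ≤ r₅ := by
    refine ⟨min (min r₁ r₂) (min r₃ (min r₄ r₅)), by positivity, ?_, ?_, ?_, ?_, ?_⟩
    · exact (min_le_left _ _).trans (min_le_left _ _)
    · exact (min_le_left _ _).trans (min_le_right _ _)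
    · exact (min_le_right _ _).trans (min_le_left _ _)
    · exact (min_le_right _ _).trans ((min_le_right _ _).trans (min_le_left _ _))
    · exact (min_le_right _ _).trans ((min_le_right _ _).trans (min_le_right _ _))
  obtain ⟨l1, l2, l3, l4, l5⟩ := hrr
  have hΩ : IsOpen (ball (0 : Fin 3 → ℂ) r) := isOpen_ball
  have af : AnalyticOnNhd ℂ f (ball (0 : Fin 3 → ℂ) r) := fun x hx =>
    h1 x (ball_subset_ball l1 hx)
  have ae : AnalyticOnNhd ℂ e (ball (0 : Fin 3 → ℂ) r) := fun x hx =>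
    h2 x (ball_subset_ball l2 hx)
  have ae' : AnalyticOnNhd ℂ e' (ball (0 : Fin 3 → ℂ) r) := fun x hx =>
    h3 x (ball_subset_ball l3 hx)
  have hJae : ∀ᵐ q : ℂ × ℂ, ∀ x ∈ ball (0 : Fin 3 → ℂ) r, x ≠ 0 → f x = 0 → e x = q.1 →
      e' x = q.2 → jac3 f e e' x ≠ 0 := by
    filter_upwards [H373.ae_fibre hΩ af ae ae' 0] with q hq x hx hx0 h6 h7 h8
    exact (hq x hx h6 h7 h8).resolve_left (h5 x (ball_subset_ball l5 hx) hx0)
  have hPae : ∀ᵐ q : ℂ × ℂ, ∀ x ∈ ball (0 : Fin 3 → ℂ) r, x ≠ 0 → f x = 0 → e x = q.1 →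
      e' x = q.2 → pd 2 f x ≠ 0 := by
    filter_upwards [thin hΩ af (h4 r l4) ae ae'] with q hq x hx hx0 h6 h7 h8
    exact (hq x hx h6 h7 h8).resolve_left (h5 x (ball_subset_ball l5 hx) hx0)
  exact (ae_generic hf he he' hJ e0' hD hr hJae).and (ae_generic hf he he' hP e0' hD hr hPae)

/-- The branches of the curve `e = c e'` on the surface. -/
theorem exists_branches_line (hf : Hol f) (he : Hol e) (he' : Hol e') (f0 : f 0 = 0)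
    (e0 : e 0 = 0) (e0' : e' 0 = 0) (d0 : ∀ i, pd i f 0 = 0) (hD : Colength ![f, e, e'] D)
    {c : ℂ} (hc : ∀ᶠ x in 𝓝 (0 : Fin 3 → ℂ), f x = 0 → e x = e' x * c → x ≠ 0 →
      jac3 f e e' x ≠ 0) :
    ∃ (k : ℕ) (γ : Fin k → ℂ → Fin 3 → ℂ) (R : ℝ), 0 < R ∧
      (∀ i, ∀ s ∈ ball (0 : ℂ) R, AnalyticAt ℂ (γ i) s) ∧ (∀ i, γ i 0 = 0) ∧
      (∀ i, ∀ s ∈ ball (0 : ℂ) R, f (γ i s) = 0 ∧ e (γ i s) = e' (γ i s) * c) ∧
      (∀ i j, ∀ s ∈ ball (0 : ℂ) R, ∀ s' ∈ ball (0 : ℂ) R, γ i s = γ j s' →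
        (s = 0 ∧ s' = 0) ∨ (i = j ∧ s = s')) ∧
      (∀ ε > 0, ∀ᶠ x in 𝓝 (0 : Fin 3 → ℂ), f x = 0 → e x = e' x * c →
        ∃ i, ∃ s ∈ ball (0 : ℂ) ε, x = γ i s) ∧
      (∀ i, ¬ ∀ᶠ s in 𝓝 (0 : ℂ), e' (γ i s) = 0) ∧
      D = ∑ i, H941.ordA e' (γ i) ∧
      ∀ g : (Fin 3 → ℂ) → ℂ, Hol g → (∀ i, ¬ ∀ᶠ s in 𝓝 (0 : ℂ), g (γ i s) = 0) →
        Colength ![f, fun x => e x + -c * e' x, g] (∑ i, H941.ordA g (γ i)) := by
  set ec : (Fin 3 → ℂ) → ℂ := fun x => e x + -c * e' x with hecd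
  have hec : Hol ec := AnalyticAt.add he (AnalyticAt.mul analyticAt_const he')
  have ec0 : ec 0 = 0 := by
    simp only [hecd, e0, e0', mul_zero, add_zero]
  have hD' : Colength ![f, ec, e'] D := colength_shear hf he he' (-c) hD
  have heq : ∀ x, ec x = 0 ↔ e x = e' x * c := by
    intro x
    rw [hecd]
    constructor
    · intro h
      have h' : e x + -c * e' x = 0 := h
      linear_combination h'
    · intro h
      change e x + -c * e' x = 0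
      rw [h]
      ring
  have hjac : ∀ᶠ x in 𝓝 (0 : Fin 3 → ℂ), jac3 f ec e' x = jac3 f e e' x := by
    filter_upwards [he.eventually_analyticAt, he'.eventually_analyticAt] with x hx hx'
    have h6 : ∀ i, pd i ec x = pd i e x + -c * pd i e' x := by
      intro i
      unfold pd
      rw [hecd, fderiv_fun_add hx.differentiableAt (hx'.differentiableAt.const_mul _),
        fderiv_const_mul hx'.differentiableAt]
      rfl
    rw [H137.jac3_eq, H137.jac3_eq]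
    simp only [minor2, h6]
    ring
  have hxi0 : H462.xi f ec 0 = 0 := by
    funext i
    fin_cases i <;> simp [H462.xi, minor2, d0]
  have hxi : ∀ᶠ x in 𝓝 (0 : Fin 3 → ℂ), f x = 0 → ec x = 0 → x ≠ 0 → H462.xi f ec x ≠ 0 := by
    filter_upwards [hc, hjac] with x hx hjx hx1 hx2 hx3 hcon
    refine hx hx1 ((heq x).1 hx2) hx3 ?_
    rw [← hjx, ← H941.fderiv_xi, hcon, map_zero]
  obtain ⟨k, γ, cc, u, R, hkpos, B, -, hform⟩ :=
    H941.exists_branches' hf hec f0 ec0 hxi0 hxi he' e0' hD'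
  have hne' := (hform e' he').1.1 ⟨D, hD'⟩
  refine ⟨k, γ, R, B.pos, B.hol, B.zero, fun i s hs => ?_, B.inj, fun ε hε => ?_, hne',
    H137.colength_unique (H137.hol_three hf hec he') hD' ((hform e' he').2 hne').1,
    fun g hg hgn => ((hform g hg).2 hgn).1⟩
  · exact ⟨(B.mem i s hs).1, (heq _).1 (B.mem i s hs).2⟩
  · filter_upwards [B.cover ε hε] with x hx h1 h2
    exact hx h1 ((heq _).2 h2)

/-- For almost every `c` the curve `e = c e'` on the surface consists of exactly `D` arcs, `D` the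
colength of `(f, e, e')`, parametrized by a root of `e'`. -/
theorem arcs_of_good (hf : Hol f) (he : Hol e) (he' : Hol e') (f0 : f 0 = 0)
    (e0 : e 0 = 0) (e0' : e' 0 = 0) (d0 : ∀ i, pd i f 0 = 0) (hD : Colength ![f, e, e'] D)
    {c : ℂ} (hc : ∀ᶠ x in 𝓝 (0 : Fin 3 → ℂ), f x = 0 → e x = e' x * c → x ≠ 0 →
      jac3 f e e' x ≠ 0) (hc2 : ∀ᶠ x in 𝓝 (0 : Fin 3 → ℂ), f x = 0 → e x = e' x * c → x ≠ 0 →
      pd 2 f x ≠ 0) :
    ∃ (M : ℕ) (ψ : Fin D → ℂ → Fin 3 → ℂ), 0 < M ∧ (∀ j, AnalyticAt ℂ (ψ j) 0) ∧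
      (∀ j, ψ j 0 = 0) ∧
      (∀ j, ∀ᶠ s in 𝓝 (0 : ℂ), f (ψ j s) = 0 ∧ e (ψ j s) = e' (ψ j s) * c ∧
        e' (ψ j s) = s ^ M) ∧
      (∀ i j, i ≠ j → ∀ᶠ s in 𝓝[≠] (0 : ℂ), ψ i s ≠ ψ j s) ∧
      ∀ j, ∀ᶠ s in 𝓝[≠] (0 : ℂ), pd 2 f (ψ j s) ≠ 0 ∧ jac3 f e e' (ψ j s) ≠ 0 := by
  obtain ⟨k, γ, R, hR, hγa, hγ0, hγm, hγi, -, hγn, hDs, -⟩ :=
    exists_branches_line hf he he' f0 e0 e0' d0 hD hc
  have hγa0 : ∀ i, AnalyticAt ℂ (γ i) 0 := fun i => hγa i 0 (mem_ball_self hR)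
  set n : Fin k → ℕ := fun i => H941.ordA e' (γ i) with hn
  have ah : ∀ i, AnalyticAt ℂ (fun s => e' (γ i s)) 0 := fun i =>
    AnalyticAt.comp_of_eq he' (hγa0 i) (hγ0 i)
  have hord : ∀ i, analyticOrderAt (fun s => e' (γ i s)) 0 = (n i : ℕ) := by
    intro i
    refine (ENat.natCast_toNat ?_).symm
    rw [Ne, analyticOrderAt_eq_top]
    exact hγn i
  have n0 : ∀ i, n i ≠ 0 := by
    intro i h
    have h1 := hord i
    rw [h, Nat.cast_zero, (ah i).analyticOrderAt_eq_zero] at h1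
    exact h1 (by rw [hγ0, e0'])
  choose θ hθa hθ0 hθn hθi using fun i => normal_form (ah i) (hord i) (n0 i)
  -- the common exponent
  obtain ⟨M, hM⟩ : ∃ M, M = ∏ i, n i := ⟨_, rfl⟩
  have hMpos : 0 < M := by
    rw [hM]
    exact Finset.prod_pos fun i _ => Nat.pos_of_ne_zero (n0 i)
  have hdvd : ∀ i, ∃ q, M = n i * q := by
    intro i
    obtain ⟨q, hq⟩ := Finset.dvd_prod_of_mem n (Finset.mem_univ i)
    exact ⟨q, by rw [hM, hq]⟩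
  choose q hq using hdvd
  have q0 : ∀ i, q i ≠ 0 := by
    intro i h
    have := hq i
    rw [h, mul_zero] at this
    exact hMpos.ne' this
  have hζ : ∀ i, ∃ ζ : ℂ, IsPrimitiveRoot ζ (n i) := fun i =>
    ⟨_, Complex.isPrimitiveRoot_exp (n i) (n0 i)⟩
  choose ζ hζ using hζ
  have hζ0 : ∀ i, ζ i ≠ 0 := fun i => (hζ i).ne_zero (n0 i)
  -- the parameter change
  set p : (Σ i, Fin (n i)) → ℂ → ℂ := fun a s => ζ a.1 ^ (a.2 : ℕ) * s ^ q a.1 with hp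
  have hp0 : ∀ a, p a 0 = 0 := fun a => by simp [hp, q0 a.1]
  have hpa : ∀ a, AnalyticAt ℂ (p a) 0 := fun a =>
    analyticAt_const.mul (analyticAt_id.pow _)
  have hpt : ∀ a, Tendsto (p a) (𝓝 0) (𝓝 0) := fun a => by
    have := (hpa a).continuousAt.tendsto
    rwa [hp0] at this
  have hpn : ∀ a s, s ≠ 0 → p a s ≠ 0 := fun a s hs =>
    mul_ne_zero (pow_ne_zero _ (hζ0 a.1)) (pow_ne_zero _ hs)
  have hθt : ∀ i, Tendsto (θ i) (𝓝 0) (𝓝 0) := fun i => by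
    have := (hθa i).continuousAt.tendsto
    rwa [hθ0] at this
  set Ψ : (Σ i, Fin (n i)) → ℂ → Fin 3 → ℂ := fun a s => γ a.1 (θ a.1 (p a s)) with hΨ
  have hΨ0 : ∀ a, Ψ a 0 = 0 := fun a => by
    simp only [hΨ, hp0, hθ0, hγ0]
  have hΨa : ∀ a, AnalyticAt ℂ (Ψ a) 0 := by
    intro a
    have h1 : AnalyticAt ℂ (fun s => θ a.1 (p a s)) 0 :=
      AnalyticAt.comp_of_eq (hθa a.1) (hpa a) (hp0 a)
    exact AnalyticAt.comp_of_eq (hγa0 a.1) h1 (by rw [hp0, hθ0])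
  have hΨb : ∀ a, ∀ᶠ s in 𝓝 (0 : ℂ), θ a.1 (p a s) ∈ ball (0 : ℂ) R := fun a =>
    ((hθt a.1).comp (hpt a)).eventually (ball_mem_nhds _ hR)
  have hΨm : ∀ a, ∀ᶠ s in 𝓝 (0 : ℂ), f (Ψ a s) = 0 ∧ e (Ψ a s) = e' (Ψ a s) * c ∧
      e' (Ψ a s) = s ^ M := by
    intro a
    filter_upwards [hΨb a, (hpt a).eventually (hθn a.1)] with s hs1 hs2
    refine ⟨(hγm a.1 _ hs1).1, (hγm a.1 _ hs1).2, ?_⟩
    change e' (γ a.1 (θ a.1 (p a s))) = s ^ M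
    rw [hs2, hp]
    simp only
    rw [mul_pow, ← pow_mul, ← pow_mul, mul_comm (a.2 : ℕ), pow_mul, (hζ a.1).pow_eq_one, one_pow,
      one_mul, hq a.1, mul_comm (q a.1)]
  have hinj : ∀ a, ∀ᶠ s in 𝓝 (0 : ℂ), p a s ∈ ball (0 : ℂ) (hθi a.1).choose := fun a =>
    (hpt a).eventually (ball_mem_nhds _ (hθi a.1).choose_spec.1)
  have hΨne0 : ∀ a, ∀ᶠ s in 𝓝[≠] (0 : ℂ), θ a.1 (p a s) ≠ 0 := by
    intro a
    filter_upwards [mem_nhdsWithin_of_mem_nhds (hinj a), self_mem_nhdsWithin] with s hs1 hs2 h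
    have h1 := (hθi a.1).choose_spec.2 hs1 (mem_ball_self (hθi a.1).choose_spec.1)
      (by rw [h, hθ0])
    exact hpn a s hs2 h1
  have hΨne : ∀ a b, a ≠ b → ∀ᶠ s in 𝓝[≠] (0 : ℂ), Ψ a s ≠ Ψ b s := by
    rintro ⟨i, l⟩ ⟨j, l'⟩ hab
    filter_upwards [mem_nhdsWithin_of_mem_nhds (hinj ⟨i, l⟩),
      mem_nhdsWithin_of_mem_nhds (hinj ⟨j, l'⟩), self_mem_nhdsWithin, hΨne0 ⟨i, l⟩,
      mem_nhdsWithin_of_mem_nhds (hΨb ⟨i, l⟩), mem_nhdsWithin_of_mem_nhds (hΨb ⟨j, l'⟩)]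
      with s hs1 hs2 hs3 hs4 hs5 hs6 h
    rcases hγi i j _ hs5 _ hs6 h with h1 | ⟨rfl, h1⟩
    · exact hs4 h1.1
    · have h2 := (hθi i).choose_spec.2 hs1 hs2 h1
      have h3 : ζ i ^ (l : ℕ) = ζ i ^ (l' : ℕ) := mul_right_cancel₀ (pow_ne_zero _ hs3) h2
      have h4 := (hζ i).pow_inj l.2 l'.2 h3
      exact hab (by rw [Fin.ext h4])
  have hΨg : ∀ a, ∀ᶠ s in 𝓝[≠] (0 : ℂ), pd 2 f (Ψ a s) ≠ 0 ∧ jac3 f e e' (Ψ a s) ≠ 0 := by
    intro a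
    have ht : Tendsto (Ψ a) (𝓝[≠] 0) (𝓝 0) := by
      have := (hΨa a).continuousAt.tendsto
      rw [hΨ0] at this
      exact this.mono_left nhdsWithin_le_nhds
    filter_upwards [ht.eventually hc, ht.eventually hc2, mem_nhdsWithin_of_mem_nhds (hΨm a),
      self_mem_nhdsWithin] with s hs1 hs2 hs3 hs4
    have hne : Ψ a s ≠ 0 := by
      intro h
      have h1 := hs3.2.2
      rw [h, e0'] at h1
      exact pow_ne_zero M hs4 h1.symm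
    exact ⟨hs2 hs3.1 hs3.2.1 hne, hs1 hs3.1 hs3.2.1 hne⟩
  -- reindexing
  subst hDs
  let E : (Σ i, Fin (n i)) ≃ Fin (∑ i, n i) := finSigmaFinEquiv
  refine ⟨M, fun j => Ψ (E.symm j), hMpos, fun j => hΨa _, fun j => hΨ0 _, fun j => hΨm _,
    fun i j hij => hΨne _ _ fun h => hij (E.symm.injective h), fun j => hΨg _⟩

/-- the arcs of almost all curves `e = c e'` -/
theorem ae_arcs (hf : Hol f) (he : Hol e) (he' : Hol e') (f0 : f 0 = 0)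
    (e0 : e 0 = 0) (e0' : e' 0 = 0) (d0 : ∀ i, pd i f 0 = 0) (hμ : Milnor f μ)
    (hz : ∃ᶠ z in 𝓝 (0 : ℂ), f ![0, 0, z] ≠ 0) (hD : Colength ![f, e, e'] D) :
    ∀ᵐ c : ℂ, ∃ (M : ℕ) (ψ : Fin D → ℂ → Fin 3 → ℂ), 0 < M ∧ (∀ j, AnalyticAt ℂ (ψ j) 0) ∧
      (∀ j, ψ j 0 = 0) ∧
      (∀ j, ∀ᶠ s in 𝓝 (0 : ℂ), f (ψ j s) = 0 ∧ e (ψ j s) = e' (ψ j s) * c ∧
        e' (ψ j s) = s ^ M) ∧
      (∀ i j, i ≠ j → ∀ᶠ s in 𝓝[≠] (0 : ℂ), ψ i s ≠ ψ j s) ∧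
      ∀ j, ∀ᶠ s in 𝓝[≠] (0 : ℂ), pd 2 f (ψ j s) ≠ 0 ∧ jac3 f e e' (ψ j s) ≠ 0 := by
  filter_upwards [ae_good hf he he' e0' d0 hμ hz hD] with c hc
  exact arcs_of_good hf he he' f0 e0 e0' d0 hD hc.1 hc.2

end

end Vale.Agent.P298.H740
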