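import Mathlib

/-!
# P298, Lemma B (helper740), part 1: integrals over `ℂ`
-/

namespace Vale.Agent.P298.H740

open Filter Topology Metric MeasureTheory Set
open scoped ENNReal NNReal

/-- scaling -/
theorem lintegral_comp_mul {a : ℂ} (ha : a ≠ 0) (G : ℂ → ℝ≥0∞) :
    ‖a‖ₑ ^ 2 * ∫⁻ c, G (a * c) = ∫⁻ u, G u := by
  have hdet : LinearMap.det (LinearMap.mulLeft ℝ a) = ‖a‖ ^ 2 := by
    have h1 : LinearMap.det (LinearMap.mulLeft ℝ a) = Algebra.norm ℝ a := by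
      rw [Algebra.norm_apply]
      rfl
    rw [h1, Algebra.norm_complex_apply, Complex.normSq_eq_norm_sq]
  have h0 : LinearMap.det (LinearMap.mulLeft ℝ a) ≠ 0 := by
    rw [hdet]
    positivity
  have h1 := Measure.map_linearMap_addHaar_eq_smul_addHaar (volume : Measure ℂ) h0
  have hemb : MeasurableEmbedding (fun c : ℂ => a * c) :=
    (Homeomorph.mulLeft₀ a ha).measurableEmbedding
  have h2 : ∫⁻ c, G (a * c) = ∫⁻ u, G u ∂(Measure.map (fun c : ℂ => a * c) volume) := by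
    rw [hemb.lintegral_map]
  have h3 : (⇑(LinearMap.mulLeft ℝ a) : ℂ → ℂ) = fun c => a * c := rfl
  rw [h3] at h1
  rw [h2, h1, lintegral_smul_measure, hdet, smul_eq_mul, ← mul_assoc]
  have h4 : ‖a‖ₑ ^ 2 * ENNReal.ofReal |(‖a‖ ^ 2)⁻¹| = 1 := by
    rw [abs_of_nonneg (by positivity), ← ofReal_norm, ← ENNReal.ofReal_pow (norm_nonneg _),
      ← ENNReal.ofReal_mul (by positivity), mul_inv_cancel₀ (by positivity), ENNReal.ofReal_one]
  rw [h4, one_mul]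

/-- almost every complex line -/
theorem ae_line {F : ℂ × ℂ → ℝ≥0∞} (hF : Measurable F) (hfin : ∫⁻ q, F q < ∞) :
    ∀ᵐ c : ℂ, ∫⁻ t : ℂ, ‖t‖ₑ ^ 2 * F (t * c, t) < ∞ := by
  have hm : Measurable fun p : ℂ × ℂ => ‖p.2‖ₑ ^ 2 * F (p.2 * p.1, p.2) := by
    refine (measurable_snd.enorm.pow_const 2).mul (hF.comp ?_)
    exact (measurable_snd.mul measurable_fst).prodMk measurable_snd
  have h1 : ∫⁻ c : ℂ, ∫⁻ t : ℂ, ‖t‖ₑ ^ 2 * F (t * c, t) ≤ ∫⁻ q, F q := by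
    rw [Measure.volume_eq_prod, lintegral_prod_symm' _ hF]
    rw [lintegral_lintegral_swap hm.aemeasurable]
    refine lintegral_mono fun t => ?_
    change ∫⁻ c : ℂ, ‖t‖ₑ ^ 2 * F (t * c, t) ≤ ∫⁻ u : ℂ, F (u, t)
    rw [lintegral_const_mul']
    swap
    · exact ENNReal.pow_ne_top enorm_ne_top
    by_cases ht : t = 0
    · rw [ht]
      simp
    · rw [lintegral_comp_mul ht fun u => F (u, t)]
  have h2 := h1.trans_lt hfin
  exact ae_lt_top (hm.lintegral_prod_right') h2.ne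

/-- `|t|^a` is integrable near `0 ∈ ℂ` only if `a > -2` -/
theorem rpow_gt {a ρ : ℝ} (hρ : 0 < ρ)
    (hfin : ∫⁻ t : ℂ in ball 0 ρ, ‖t‖ₑ ^ a < ∞) : -2 < a := by
  by_contra hcon
  push Not at hcon
  set G : ℂ → ℝ≥0∞ := (ball (0 : ℂ) (ρ / 2)).indicator fun t => ‖t‖ₑ ^ a with hG
  have hh : (1 / 2 : ℂ) ≠ 0 := by norm_num
  have hn : ‖(1 / 2 : ℂ)‖ = 1 / 2 := by norm_num
  have hne : ‖(1 / 2 : ℂ)‖ₑ = ENNReal.ofReal (1 / 2) := by rw [← ofReal_norm, hn]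
  have h0 : ‖(1 / 2 : ℂ)‖ₑ ≠ 0 := by simp
  have ht : ‖(1 / 2 : ℂ)‖ₑ ≠ ∞ := enorm_ne_top
  have h1 := lintegral_comp_mul hh G
  have h2 : ∀ c : ℂ, G (1 / 2 * c) = ‖(1 / 2 : ℂ)‖ₑ ^ a *
      (ball (0 : ℂ) ρ).indicator (fun t => ‖t‖ₑ ^ a) c := by
    intro c
    have h3 : (1 / 2 * c ∈ ball (0 : ℂ) (ρ / 2)) ↔ c ∈ ball (0 : ℂ) ρ := by
      rw [mem_ball_zero_iff, mem_ball_zero_iff, norm_mul, hn]
      constructor <;> intro h <;> linarith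
    by_cases hc : c ∈ ball (0 : ℂ) ρ
    · rw [hG, indicator_of_mem (h3.2 hc), indicator_of_mem hc, enorm_mul,
        ENNReal.mul_rpow_of_ne_top ht enorm_ne_top]
    · rw [hG, indicator_of_notMem (fun h => hc (h3.1 h)), indicator_of_notMem hc, mul_zero]
  have h3 : ∫⁻ c, G (1 / 2 * c) = ‖(1 / 2 : ℂ)‖ₑ ^ a * ∫⁻ t : ℂ in ball 0 ρ, ‖t‖ₑ ^ a := by
    simp only [h2]
    rw [lintegral_const_mul' _ _ (ENNReal.rpow_ne_top_of_ne_zero h0 ht),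
      lintegral_indicator measurableSet_ball]
  have h4 : ∫⁻ u, G u = ∫⁻ t : ℂ in ball 0 (ρ / 2), ‖t‖ₑ ^ a := by
    rw [hG, lintegral_indicator measurableSet_ball]
  have h5 : 1 ≤ ‖(1 / 2 : ℂ)‖ₑ ^ 2 * ‖(1 / 2 : ℂ)‖ₑ ^ a := by
    rw [← ENNReal.rpow_natCast, ← ENNReal.rpow_add _ _ h0 ht]
    have h6 : ‖(1 / 2 : ℂ)‖ₑ ≤ 1 := by
      rw [hne]
      exact ENNReal.ofReal_le_one.2 (by norm_num)
    have h7 := ENNReal.rpow_le_rpow_of_exponent_ge h6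
      (show ((2 : ℕ) : ℝ) + a ≤ 0 by push_cast; linarith)
    rwa [ENNReal.rpow_zero] at h7
  have h6 : ∫⁻ t : ℂ in ball 0 ρ, ‖t‖ₑ ^ a ≤ ∫⁻ t : ℂ in ball 0 (ρ / 2), ‖t‖ₑ ^ a := by
    rw [← h4, ← h1, h3, ← mul_assoc]
    calc ∫⁻ t : ℂ in ball 0 ρ, ‖t‖ₑ ^ a = 1 * ∫⁻ t : ℂ in ball 0 ρ, ‖t‖ₑ ^ a := (one_mul _).symm
      _ ≤ _ := mul_le_mul_left h5 _
  have h7 : ∫⁻ t : ℂ in ball 0 ρ, ‖t‖ₑ ^ a = (∫⁻ t : ℂ in ball 0 (ρ / 2), ‖t‖ₑ ^ a) +
      ∫⁻ t : ℂ in ball 0 ρ \ ball 0 (ρ / 2), ‖t‖ₑ ^ a := by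
    rw [← lintegral_union (measurableSet_ball.diff measurableSet_ball) disjoint_sdiff_right,
      union_sdiff_cancel (ball_subset_ball (by linarith))]
  have h8 : 0 < ∫⁻ t : ℂ in ball 0 ρ \ ball 0 (ρ / 2), ‖t‖ₑ ^ a := by
    rw [setLIntegral_pos_iff (measurable_enorm.pow_const a)]
    have h9 : ball ((3 * ρ / 4 : ℝ) : ℂ) (ρ / 8) ⊆
        (Function.support fun t : ℂ => ‖t‖ₑ ^ a) ∩ (ball 0 ρ \ ball 0 (ρ / 2)) := by
      intro z hz
      rw [mem_ball, dist_eq_norm] at hz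
      have hn3 : ‖((3 * ρ / 4 : ℝ) : ℂ)‖ = 3 * ρ / 4 := by
        rw [Complex.norm_real, Real.norm_of_nonneg (by positivity)]
      have h10 : ‖z‖ < ρ := by
        have := norm_le_norm_add_norm_sub' z ((3 * ρ / 4 : ℝ) : ℂ)
        linarith
      have h11 : ρ / 2 ≤ ‖z‖ := by
        have := norm_le_norm_add_norm_sub' ((3 * ρ / 4 : ℝ) : ℂ) z
        rw [norm_sub_rev] at this
        linarith
      refine ⟨?_, mem_ball_zero_iff.2 h10, fun h => ?_⟩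
      · rw [Function.mem_support]
        refine (ENNReal.rpow_pos ?_ enorm_ne_top).ne'
        rw [enorm_pos]
        rintro rfl
        rw [norm_zero] at h11
        linarith
      · rw [mem_ball_zero_iff] at h
        linarith
    exact (measure_ball_pos volume _ (by positivity)).trans_le (measure_mono h9)
  have h9 : (∫⁻ t : ℂ in ball 0 (ρ / 2), ‖t‖ₑ ^ a) ≠ ∞ := by
    refine ne_top_of_le_ne_top hfin.ne ?_
    rw [h7]
    exact self_le_add_right _ _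
  rw [h7] at h6
  have h10 := ENNReal.lt_add_right h9 h8.ne'
  exact absurd h6 (not_le.2 h10)

end Vale.Agent.P298.H740
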