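import Vale.Agent.P298.H740.LB1

/-!
# P298, Lemma B (helper740), part 2: the estimate on one branch
-/

namespace Vale.Agent.P298.H740

open Filter Topology Metric MeasureTheory Set
open scoped ENNReal NNReal

/-- bounds of an analytic function of finite order -/
theorem order_bounds {h : ℂ → ℂ} (hh : AnalyticAt ℂ h 0) {n : ℕ}
    (hn : analyticOrderAt h 0 = n) : ∃ c C : ℝ, 0 < c ∧ 0 < C ∧
      ∀ᶠ s in 𝓝 (0 : ℂ), c * ‖s‖ ^ n ≤ ‖h s‖ ∧ ‖h s‖ ≤ C * ‖s‖ ^ n := by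
  obtain ⟨g, hg, hg0, hgh⟩ := (hh.analyticOrderAt_eq_natCast).1 hn
  have hpos : 0 < ‖g 0‖ := norm_pos_iff.2 hg0
  have h1 : ∀ᶠ s in 𝓝 (0 : ℂ), ‖g 0‖ / 2 < ‖g s‖ :=
    hg.continuousAt.norm.eventually (lt_mem_nhds (by linarith))
  have h2 : ∀ᶠ s in 𝓝 (0 : ℂ), ‖g s‖ < 2 * ‖g 0‖ :=
    hg.continuousAt.norm.eventually (gt_mem_nhds (by linarith))
  refine ⟨‖g 0‖ / 2, 2 * ‖g 0‖, by positivity, by positivity, ?_⟩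
  filter_upwards [hgh, h1, h2] with s hs hs1 hs2
  rw [hs, sub_zero, norm_smul, norm_pow]
  have hp : 0 ≤ ‖s‖ ^ n := by positivity
  constructor <;> nlinarith

/-- **The estimate on one branch.** -/
theorem branch_bound {h j : ℂ → ℂ} (hh : AnalyticAt ℂ h 0) (hj : AnalyticAt ℂ j 0) {n o : ℕ}
    (hn : analyticOrderAt h 0 = n) (ho : analyticOrderAt j 0 = o) (n0 : n ≠ 0) {k : ℝ}
    {Γ : ℂ → ℝ≥0∞}
    (hΓ : ∀ᶠ s in 𝓝[≠] (0 : ℂ), ‖h s‖ₑ ^ (2 / k) / ‖j s‖ₑ ^ 2 ≤ Γ (h s))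
    (hint : ∫⁻ t, ‖t‖ₑ ^ 2 * Γ t < ∞) : (o : ℝ) < (2 + 1 / k) * n := by
  have hn0 : (0 : ℝ) < n := by exact_mod_cast Nat.pos_of_ne_zero n0
  obtain ⟨c, C, hc, hC, hb⟩ := order_bounds hh hn
  obtain ⟨c', C', hc', hC', hb'⟩ := order_bounds hj ho
  have h00 : h 0 = 0 := by
    by_contra hne
    rw [(hh.analyticOrderAt_eq_zero).2 hne] at hn
    exact n0 (by exact_mod_cast hn.symm)
  -- the bound of `j` by `h`
  set D : ℝ := C' * (1 / c) ^ ((o : ℝ) / n) with hD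
  have hDpos : 0 < D := by positivity
  have hjh : ∀ᶠ s in 𝓝 (0 : ℂ), ‖j s‖ ≤ D * ‖h s‖ ^ ((o : ℝ) / n) := by
    filter_upwards [hb, hb'] with s hs hs'
    have h1 : ‖s‖ ^ n ≤ 1 / c * ‖h s‖ := by
      rw [one_div, ← div_eq_inv_mul, le_div_iff₀ hc]
      linarith [hs.1]
    have h2 : ‖s‖ ^ o = (‖s‖ ^ n) ^ ((o : ℝ) / n) := by
      rw [← Real.rpow_natCast, ← Real.rpow_natCast, ← Real.rpow_mul (norm_nonneg _)]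
      congr 1
      field_simp
    calc ‖j s‖ ≤ C' * ‖s‖ ^ o := hs'.2
      _ = C' * (‖s‖ ^ n) ^ ((o : ℝ) / n) := by rw [h2]
      _ ≤ C' * (1 / c * ‖h s‖) ^ ((o : ℝ) / n) := by
          gcongr
      _ = D * ‖h s‖ ^ ((o : ℝ) / n) := by
          rw [Real.mul_rpow (by positivity) (norm_nonneg _), hD, mul_assoc]
  -- open mapping
  have hopen : 𝓝 (0 : ℂ) ≤ map h (𝓝 0) := by
    rcases hh.eventually_constant_or_nhds_le_map_nhds with h1 | h1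
    · exfalso
      have h2 : analyticOrderAt h 0 = ⊤ := by
        rw [analyticOrderAt_eq_top]
        filter_upwards [h1] with s hs
        rw [hs, h00]
      rw [hn] at h2
      exact ENat.natCast_ne_top n h2
    · rwa [h00] at h1
  rw [eventually_nhdsWithin_iff] at hΓ
  have h3 : h '' {s | (‖j s‖ ≤ D * ‖h s‖ ^ ((o : ℝ) / n)) ∧
      (s ∈ ({0}ᶜ : Set ℂ) → ‖h s‖ₑ ^ (2 / k) / ‖j s‖ₑ ^ 2 ≤ Γ (h s))} ∈ 𝓝 (0 : ℂ) :=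
    hopen (image_mem_map (hjh.and hΓ))
  obtain ⟨ρ, hρ, hball⟩ := Metric.mem_nhds_iff.1 h3
  set E : ℝ≥0∞ := ENNReal.ofReal D ^ 2 with hE
  have hE0 : E ≠ 0 := pow_ne_zero 2 (by simpa using hDpos)
  have hEt : E ≠ ∞ := ENNReal.pow_ne_top ENNReal.ofReal_ne_top
  have h4 : ∀ t ∈ ball (0 : ℂ) ρ, t ≠ 0 →
      ‖t‖ₑ ^ (2 + 2 / k - 2 * (o / n : ℝ)) ≤ E * (‖t‖ₑ ^ 2 * Γ t) := by
    intro t ht ht0
    obtain ⟨s, ⟨hs1, hs2⟩, rfl⟩ := hball ht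
    have hs0 : s ≠ 0 := by
      rintro rfl
      exact ht0 h00
    have hs3 := hs2 hs0
    have e0 : ‖h s‖ₑ ≠ 0 := by simpa using ht0
    have et : ‖h s‖ₑ ≠ ∞ := enorm_ne_top
    have h5 : ‖j s‖ₑ ^ 2 ≤ E * ‖h s‖ₑ ^ (2 * (o / n : ℝ)) := by
      have h6 : ‖j s‖ₑ ≤ ENNReal.ofReal D * ‖h s‖ₑ ^ (o / n : ℝ) := by
        rw [← ofReal_norm, ← ofReal_norm, ENNReal.ofReal_rpow_of_pos (norm_pos_iff.2 ht0),
          ← ENNReal.ofReal_mul hDpos.le]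
        exact ENNReal.ofReal_le_ofReal hs1
      calc ‖j s‖ₑ ^ 2 ≤ (ENNReal.ofReal D * ‖h s‖ₑ ^ (o / n : ℝ)) ^ 2 := by gcongr
        _ = E * ‖h s‖ₑ ^ (2 * (o / n : ℝ)) := by
            rw [mul_pow, hE, ← ENNReal.rpow_natCast (‖h s‖ₑ ^ (o / n : ℝ)), ← ENNReal.rpow_mul]
            congr 2
            push_cast
            ring
    have h6 : ‖h s‖ₑ ^ (-(2 * (o / n : ℝ))) ≤ E * (‖j s‖ₑ ^ 2)⁻¹ := by
      rw [ENNReal.rpow_neg]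
      calc (‖h s‖ₑ ^ (2 * (o / n : ℝ)))⁻¹ = E * (E⁻¹ * (‖h s‖ₑ ^ (2 * (o / n : ℝ)))⁻¹) := by
            rw [← mul_assoc, ENNReal.mul_inv_cancel hE0 hEt, one_mul]
        _ = E * (E * ‖h s‖ₑ ^ (2 * (o / n : ℝ)))⁻¹ := by
            rw [ENNReal.mul_inv (Or.inl hE0) (Or.inl hEt)]
        _ ≤ E * (‖j s‖ₑ ^ 2)⁻¹ := by gcongr
    have h7 : ‖h s‖ₑ ^ (2 + 2 / k - 2 * (o / n : ℝ)) =
        ‖h s‖ₑ ^ 2 * (‖h s‖ₑ ^ (2 / k) * ‖h s‖ₑ ^ (-(2 * (o / n : ℝ)))) := by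
      rw [sub_eq_add_neg, ENNReal.rpow_add _ _ e0 et, ENNReal.rpow_add _ _ e0 et, mul_assoc]
      congr 1
      exact_mod_cast ENNReal.rpow_natCast ‖h s‖ₑ 2
    rw [h7]
    calc ‖h s‖ₑ ^ 2 * (‖h s‖ₑ ^ (2 / k) * ‖h s‖ₑ ^ (-(2 * (o / n : ℝ)))) ≤
        ‖h s‖ₑ ^ 2 * (‖h s‖ₑ ^ (2 / k) * (E * (‖j s‖ₑ ^ 2)⁻¹)) := by gcongr
      _ = E * (‖h s‖ₑ ^ 2 * (‖h s‖ₑ ^ (2 / k) / ‖j s‖ₑ ^ 2)) := by
          rw [ENNReal.div_eq_inv_mul]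
          ring
      _ ≤ E * (‖h s‖ₑ ^ 2 * Γ (h s)) := by gcongr
  have h5 : ∫⁻ t : ℂ in ball 0 ρ, ‖t‖ₑ ^ (2 + 2 / k - 2 * (o / n : ℝ)) < ∞ := by
    calc ∫⁻ t : ℂ in ball 0 ρ, ‖t‖ₑ ^ (2 + 2 / k - 2 * (o / n : ℝ)) ≤
        ∫⁻ t : ℂ in ball 0 ρ, E * (‖t‖ₑ ^ 2 * Γ t) := by
          refine lintegral_mono_ae ?_
          have h6 : ∀ᵐ t : ℂ ∂(volume.restrict (ball 0 ρ)), t ≠ 0 :=
            ae_restrict_of_ae (Measure.ae_ne volume 0)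
          filter_upwards [h6, ae_restrict_mem measurableSet_ball] with t h7 h8
          exact h4 t h8 h7
      _ = E * ∫⁻ t : ℂ in ball 0 ρ, ‖t‖ₑ ^ 2 * Γ t := lintegral_const_mul' _ _ hEt
      _ ≤ E * ∫⁻ t, ‖t‖ₑ ^ 2 * Γ t := by gcongr; exact Measure.restrict_le_self
      _ < ∞ := ENNReal.mul_lt_top hEt.lt_top hint
  have h6 := rpow_gt hρ h5
  have h7 : (o : ℝ) / n < 2 + 1 / k := by
    have : (2 : ℝ) / k = 2 * (1 / k) := by ring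
    linarith
  rwa [div_lt_iff₀ hn0] at h7

end Vale.Agent.P298.H740
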