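import Vale.Agent.P298.H373.Nu
import Vale.Agent.P298.H967.Jac
import Vale.Agent.P298.H513.Mult

/-!
# P298, Lemma B (helper740), part 4: the exceptional set `∂₃ f = 0` of the surface is thin
-/

namespace Vale.Agent.P298.H740

open Filter Topology Metric MeasureTheory Set Vale.Agent.P298
open scoped ENNReal NNReal

/-- `f` does not vanish identically on a vertical segment in `Ω`. -/
def NoVert (f : (Fin 3 → ℂ) → ℂ) (Ω : Set (Fin 3 → ℂ)) : Prop :=
  ∀ x ∈ Ω, ¬ ∀ᶠ z in 𝓝 (x 2), f (Function.update x 2 z) = 0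

theorem hasDerivAt_update (x : Fin 3 → ℂ) (z : ℂ) :
    HasDerivAt (fun z : ℂ => Function.update x 2 z) (Pi.single 2 1) z := by
  rw [hasDerivAt_pi]
  intro l
  by_cases hl : l = 2
  · subst hl
    simp only [Function.update_self, Pi.single_eq_same]
    exact hasDerivAt_id z
  · simp only [Function.update_of_ne hl, Pi.single_eq_of_ne hl]
    exact hasDerivAt_const z _

theorem exists_noVert {f : (Fin 3 → ℂ) → ℂ} (hf : Hol f)
    (hz : ∃ᶠ z in 𝓝 (0 : ℂ), f ![0, 0, z] ≠ 0) : ∃ r₀ > 0, ∀ r ≤ r₀,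
      NoVert f (ball (0 : Fin 3 → ℂ) r) := by
  obtain ⟨r₁, hr₁, h1⟩ := H967.exists_ball hf
  obtain ⟨z₀, hz₀, hz₁'⟩ := (hz.and_eventually (ball_mem_nhds (0 : ℂ) hr₁)).exists
  have hz₁ : z₀ ∈ ball (0 : ℂ) r₁ := hz₁'
  have hmem : (![0, 0, z₀] : Fin 3 → ℂ) ∈ ball (0 : Fin 3 → ℂ) r₁ := by
    rw [mem_ball_zero_iff] at hz₁ ⊢
    rw [pi_norm_lt_iff hr₁]
    intro i
    fin_cases i <;> simpa
  have hc : ContinuousAt f ![0, 0, z₀] := (h1 _ hmem).continuousAt
  obtain ⟨δ, hδ, hδA⟩ := Metric.eventually_nhds_iff_ball.1 (hc.eventually_ne hz₀)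
  refine ⟨min δ r₁, lt_min hδ hr₁, fun r hr x hx hcon => ?_⟩
  rw [mem_ball_zero_iff] at hx hz₁
  have hxr : ∀ i, ‖x i‖ < r := fun i => (norm_le_pi_norm x i).trans_lt hx
  have hup : ∀ z ∈ ball (0 : ℂ) r₁, Function.update x 2 z ∈ ball (0 : Fin 3 → ℂ) r₁ := by
    intro z hz
    rw [mem_ball_zero_iff] at hz ⊢
    rw [pi_norm_lt_iff hr₁]
    intro i
    by_cases hi : i = 2
    · subst hi
      simpa using hz
    · rw [Function.update_of_ne hi]
      exact (hxr i).trans_le (hr.trans (min_le_right _ _))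
  have han : AnalyticOnNhd ℂ (fun z => f (Function.update x 2 z)) (ball (0 : ℂ) r₁) := by
    have h2 : DifferentiableOn ℂ (fun z => f (Function.update x 2 z)) (ball (0 : ℂ) r₁) := by
      intro z hz
      exact ((h1 _ (hup z hz)).differentiableAt.hasFDerivAt.comp_hasDerivAt z
        (hasDerivAt_update x z)).differentiableAt.differentiableWithinAt
    exact h2.analyticOnNhd isOpen_ball
  have hx2 : x 2 ∈ ball (0 : ℂ) r₁ := by
    rw [mem_ball_zero_iff]
    exact (hxr 2).trans_le (hr.trans (min_le_right _ _))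
  have h3 := han.eqOn_zero_of_preconnected_of_eventuallyEq_zero
    (convex_ball (0 : ℂ) r₁).isPreconnected hx2 hcon
  have h4 := h3 (mem_ball_zero_iff.2 hz₁)
  refine hδA (Function.update x 2 z₀) ?_ h4
  rw [mem_ball, dist_pi_lt_iff hδ]
  intro i
  have hx' : ∀ i, ‖x i‖ < δ := fun i => (hxr i).trans_le (hr.trans (min_le_left _ _))
  fin_cases i
  · simpa [Function.update_of_ne, dist_eq_norm] using hx' 0
  · simpa [Function.update_of_ne, dist_eq_norm] using hx' 1
  · simpa using hδ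

variable {f : (Fin 3 → ℂ) → ℂ} {Ω : Set (Fin 3 → ℂ)} {i k : Fin 3}

/-- the exceptional set is null in a graph chart -/
theorem patch_null (hf : AnalyticOnNhd ℂ f Ω) (hv : NoVert f Ω) (hik : i ≠ k) (hi2 : i ≠ 2)
    (hk2 : k ≠ 2) (P : H373.Patch f Ω 0 i 2 k) :
    volume {p : ℂ × ℂ | p ∈ P.W ∧ pd 2 f (P.g p) = 0} = 0 := by
  have hm : MeasurableSet {p : ℂ × ℂ | p ∈ P.W ∧ pd 2 f (P.g p) = 0} :=
    P.hW.measurableSet.inter
      (((H373.measurable_pd 2 f).comp P.meas) (measurableSet_singleton (0 : ℂ)))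
  rw [Measure.volume_eq_prod, Measure.measure_prod_null hm]
  refine Eventually.of_forall fun a => ?_
  change volume {z : ℂ | (a, z) ∈ P.W ∧ pd 2 f (P.g (a, z)) = 0} = 0
  refine measure_null_of_locally_null _ fun z₀ hz₀ => ?_
  obtain ⟨hW₀, hp₀⟩ := hz₀
  -- the slice
  have hsl : ∀ᶠ z in 𝓝 z₀, (a, z) ∈ P.W := by
    have hc : ContinuousAt (fun z : ℂ => (a, z)) z₀ := by fun_prop
    exact hc.eventually (P.hW.mem_nhds hW₀)
  have hd : ∀ z, (a, z) ∈ P.W → DifferentiableAt ℂ (fun z : ℂ => P.g (a, z)) z := by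
    intro z hz
    have h1 : DifferentiableAt ℂ P.g (a, z) := (P.hg _ hz).differentiableAt one_ne_zero
    have h2 : DifferentiableAt ℂ (fun z : ℂ => (a, z)) z := by fun_prop
    exact DifferentiableAt.comp z h1 h2
  set u : ℂ → ℂ := fun z => P.g (a, z) k with hu
  have hud : ∀ z, (a, z) ∈ P.W → DifferentiableAt ℂ u z := fun z hz =>
    differentiableAt_pi.1 (hd z hz) k
  have hua : AnalyticAt ℂ u z₀ := by
    rw [Complex.analyticAt_iff_eventually_differentiableAt]
    filter_upwards [hsl] with z hz using hud z hz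
  have hu' : AnalyticAt ℂ (deriv u) z₀ := hua.deriv
  -- `∂₃ f = 0` if and only if `u' = 0`
  have key : ∀ z, (a, z) ∈ P.W → pd k f (P.g (a, z)) * deriv u z + pd 2 f (P.g (a, z)) = 0 := by
    intro z hz
    have h1 : HasDerivAt (fun z : ℂ => P.g (a, z)) (deriv (fun z : ℂ => P.g (a, z)) z) z :=
      (hd z hz).hasDerivAt
    have hW1 : ∀ᶠ z' in 𝓝 z, (a, z') ∈ P.W := by
      have hc : ContinuousAt (fun z : ℂ => (a, z)) z := by fun_prop
      exact hc.eventually (P.hW.mem_nhds hz)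
    have h2 : HasDerivAt (fun z : ℂ => f (P.g (a, z)))
        (fderiv ℂ f (P.g (a, z)) (deriv (fun z : ℂ => P.g (a, z)) z)) z :=
      (hf _ (P.hUΩ (P.gU _ hz))).differentiableAt.hasFDerivAt.comp_hasDerivAt z h1
    have h3 : HasDerivAt (fun z : ℂ => f (P.g (a, z))) 0 z := by
      refine (hasDerivAt_const z (0 : ℂ)).congr_of_eventuallyEq ?_
      filter_upwards [hW1] with z' hz' using P.gf _ hz'
    have h4 := h2.unique h3
    rw [H373.fderiv_apply_pd] at h4
    have h5 : deriv (fun z : ℂ => P.g (a, z)) z i = 0 := by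
      have h6 : HasDerivAt (fun z : ℂ => P.g (a, z) i)
          (deriv (fun z : ℂ => P.g (a, z)) z i) z := (hasDerivAt_pi.1 h1) i
      have h7 : HasDerivAt (fun z : ℂ => P.g (a, z) i) 0 z := by
        refine (hasDerivAt_const z a).congr_of_eventuallyEq ?_
        filter_upwards [hW1] with z' hz' using P.gi _ hz'
      exact h6.unique h7
    have h6 : deriv (fun z : ℂ => P.g (a, z)) z 2 = 1 := by
      have h7 : HasDerivAt (fun z : ℂ => P.g (a, z) 2)
          (deriv (fun z : ℂ => P.g (a, z)) z 2) z := (hasDerivAt_pi.1 h1) 2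
      have h8 : HasDerivAt (fun z : ℂ => P.g (a, z) 2) 1 z := by
        refine (hasDerivAt_id z).congr_of_eventuallyEq ?_
        filter_upwards [hW1] with z' hz' using P.gj _ hz'
      exact h7.unique h8
    have h7 : deriv (fun z : ℂ => P.g (a, z)) z k = deriv u z :=
      ((hasDerivAt_pi.1 h1) k).deriv.symm
    have h8 : ∀ v : Fin 3 → ℂ, ∑ l, v l = v k + v 2 + v i := by
      intro v
      revert i k
      intro i k
      fin_cases i <;> fin_cases k <;> simp [Fin.sum_univ_three] <;> intros <;> ring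
    rw [h8, h5, h6, h7] at h4
    linear_combination h4
  rcases hu'.eventually_eq_zero_or_eventually_ne_zero with h1 | h1
  · -- `u` is constant: impossible
    exfalso
    obtain ⟨δ, hδ, hδA⟩ := Metric.eventually_nhds_iff_ball.1 (h1.and hsl)
    have hconst : ∀ z ∈ ball z₀ δ, u z = u z₀ := by
      intro z hz
      have hdz : DifferentiableOn ℂ u (ball z₀ δ) := fun y hy =>
        (hud y (hδA y hy).2).differentiableWithinAt
      exact (isOpen_ball.is_const_of_deriv_eq_zero (convex_ball z₀ δ).isPreconnected hdz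
        (fun y hy => (hδA y hy).1) hz (mem_ball_self hδ))
    refine hv (P.g (a, z₀)) (P.hUΩ (P.gU _ hW₀)) ?_
    rw [P.gj _ hW₀]
    filter_upwards [ball_mem_nhds z₀ hδ] with z hz
    have h2 : Function.update (P.g (a, z₀)) 2 z = P.g (a, z) := by
      funext l
      have hWz := (hδA z hz).2
      rcases H373.eq_or_eq_or_eq hi2 hik hk2.symm l with h | h | h
      · rw [h, Function.update_of_ne hi2, P.gi _ hW₀, P.gi _ hWz]
      · rw [h, Function.update_self, P.gj _ hWz]
      · rw [h, Function.update_of_ne hk2]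
        exact (hconst z hz).symm
    rw [h2]
    exact P.gf _ (hδA z hz).2
  · -- the zeros are isolated
    refine ⟨{z | (a, z) ∈ P.W ∧ pd 2 f (P.g (a, z)) = 0} ∩ {z | z ≠ z₀ → deriv u z ≠ 0 ∧
      (a, z) ∈ P.W}, ?_, ?_⟩
    · refine inter_mem self_mem_nhdsWithin (mem_nhdsWithin_of_mem_nhds ?_)
      have h2 := (eventually_nhdsWithin_iff.1 h1).and hsl
      filter_upwards [h2] with z hz hne
      exact ⟨hz.1 hne, hz.2⟩
    · refine measure_mono_null (t := {z₀}) ?_ (measure_singleton z₀)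
      rintro z ⟨⟨hz1, hz2⟩, hz3⟩
      by_contra hne
      have h4 := key z hz1
      rw [hz2, add_zero] at h4
      rcases mul_eq_zero.1 h4 with h5 | h5
      · exact P.hne _ (P.gU _ hz1) h5
      · exact (hz3 hne).1 h5

/-- **Thinness of the exceptional set**: the image of `{f = ∂₃ f = 0}`, critical points of `f`
excluded, in the plane is null. -/
theorem thin (hΩ : IsOpen Ω) (hf : AnalyticOnNhd ℂ f Ω) (hv : NoVert f Ω)
    {a b : (Fin 3 → ℂ) → ℂ} (ha : AnalyticOnNhd ℂ a Ω) (hb : AnalyticOnNhd ℂ b Ω) :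
    ∀ᵐ q : ℂ × ℂ, ∀ x ∈ Ω, f x = 0 → a x = q.1 → b x = q.2 →
      (∀ l, pd l f x = 0) ∨ pd 2 f x ≠ 0 := by
  -- the case of one direction
  have key : ∀ i k : Fin 3, i ≠ k → i ≠ 2 → k ≠ 2 → ∀ᵐ q : ℂ × ℂ, ∀ x ∈ Ω, f x = 0 →
      a x = q.1 → b x = q.2 → pd k f x = 0 ∨ pd 2 f x ≠ 0 := by
    intro i k hik hi2 hk2
    obtain ⟨P, A, -, -, hAU, hReg⟩ := H373.exists_patches hΩ hf (i := i) (j := 2) (k := k) hi2 hik
      hk2.symm 0
    have hnull : ∀ n, volume ((fun p : ℂ × ℂ => (a ((P n).g p), b ((P n).g p))) ''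
        {p : ℂ × ℂ | p ∈ (P n).W ∧ pd 2 f ((P n).g p) = 0}) = 0 := by
      intro n
      refine addHaar_image_eq_zero_of_differentiableOn_of_addHaar_eq_zero volume ?_
        (patch_null hf hv hik hi2 hk2 (P n))
      rintro p ⟨hp, -⟩
      have h1 : DifferentiableAt ℂ (P n).g p := ((P n).hg p hp).differentiableAt one_ne_zero
      have hx := (P n).hUΩ ((P n).gU p hp)
      have h2 : DifferentiableAt ℂ (fun p : ℂ × ℂ => a ((P n).g p)) p :=
        DifferentiableAt.comp p (ha _ hx).differentiableAt h1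
      have h3 : DifferentiableAt ℂ (fun p : ℂ × ℂ => b ((P n).g p)) p :=
        DifferentiableAt.comp p (hb _ hx).differentiableAt h1
      exact ((h2.prodMk h3).restrictScalars ℝ).differentiableWithinAt
    have h1 : volume (⋃ n, (fun p : ℂ × ℂ => (a ((P n).g p), b ((P n).g p))) ''
        {p : ℂ × ℂ | p ∈ (P n).W ∧ pd 2 f ((P n).g p) = 0}) = 0 := measure_iUnion_null hnull
    rw [measure_eq_zero_iff_ae_notMem] at h1
    filter_upwards [h1] with q hq x hx hx0 h2 h3
    by_contra hcon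
    push Not at hcon
    have h4 : x ∈ H373.Reg f Ω 0 k := ⟨hx, hx0, hcon.1⟩
    rw [hReg, mem_iUnion] at h4
    obtain ⟨n, hn⟩ := h4
    obtain ⟨h5, h6⟩ := (P n).inv x (hAU n hn) hx0
    refine hq (mem_iUnion.2 ⟨n, (x i, x 2), ⟨h5, ?_⟩, ?_⟩)
    · rw [h6]
      exact hcon.2
    · simp only [h6]
      exact Prod.ext h2 h3
  filter_upwards [key 1 0 (by decide) (by decide) (by decide),
    key 0 1 (by decide) (by decide) (by decide)] with q h0 h1 x hx hx0 h2 h3
  by_cases h : pd 2 f x = 0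
  · left
    intro l
    fin_cases l
    · exact (h0 x hx hx0 h2 h3).resolve_right (not_not.2 h)
    · exact (h1 x hx hx0 h2 h3).resolve_right (not_not.2 h)
    · exact h
  · exact Or.inr h

/-- critical points are isolated -/
theorem crit_isolated {μ : ℕ} (hf : Hol f) (d0 : ∀ i, pd i f 0 = 0) (hμ : Milnor f μ) :
    ∃ r > 0, ∀ x ∈ ball (0 : Fin 3 → ℂ) r, x ≠ 0 → ¬ ∀ l, pd l f x = 0 := by
  have h1 := H513.encard_fibre_le (s := fun i => pd i f) (fun i => H967.hol_pd3 hf i) d0 hμ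
  obtain ⟨r, hr, hr0⟩ := (h1.and self_mem_nhdsWithin).exists
  have hr1 : 0 < r := hr0
  have h2 := hr (fun _ => 0)
  set Z := {x ∈ ball (0 : Fin 3 → ℂ) r | ∀ j, pd j f x = 0} with hZ
  have hZf : (Z \ {0}).Finite := by
    refine Set.Finite.subset (s := Z) (Set.finite_of_encard_le_coe (k := μ) ?_) sdiff_subset
    exact h2
  have h3 : ∀ᶠ x in 𝓝 (0 : Fin 3 → ℂ), x ∉ Z \ {0} :=
    hZf.isClosed.isOpen_compl.mem_nhds (fun h => h.2 rfl)
  obtain ⟨r', hr', h4⟩ := Metric.eventually_nhds_iff_ball.1 h3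
  refine ⟨min r r', lt_min hr1 hr', fun x hx hx0 hcon => ?_⟩
  exact h4 x (ball_subset_ball (min_le_right _ _) hx)
    ⟨⟨ball_subset_ball (min_le_left _ _) hx, hcon⟩, hx0⟩

end Vale.Agent.P298.H740
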