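import Vale.Agent.P298.H740.LB3
import Vale.Agent.P298.H740.LB4

/-!
# P298, Lemma B (helper740), part 5: the colength of `(f, e + c e', jac (f, e, e'))`
-/

namespace Vale.Agent.P298.H740

open Filter Topology Metric MeasureTheory Set Vale.Agent.P298 Vale.Agent.P298.H379
open scoped ENNReal NNReal

/-- the estimate on one branch of a general curve `e = c e'` -/
theorem branch_le {f e e' : (Fin 3 → ℂ) → ℂ} {m : ℝ} (hm : 0 < m) {c : ℂ}
    (he' : Hol e') (hJ : Hol (jac3 f e e')) (e0' : e' 0 = 0)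
    (hΓ : ∀ n : ℕ, ∃ Γ : ℂ → ℝ≥0∞, ∫⁻ t, ‖t‖ₑ ^ 2 * Γ t < ∞ ∧
      ∀ᶠ x in 𝓝 (0 : Fin 3 → ℂ), f x = 0 → pd 2 f x ≠ 0 → jac3 f e e' x ≠ 0 → e x = e' x * c →
        ‖e' x‖ₑ ^ (2 / (m * (1 - 1 / ((n : ℝ) + 2)))) / ‖jac3 f e e' x‖ₑ ^ 2 ≤ Γ (e' x))
    (hg1 : ∀ᶠ x in 𝓝 (0 : Fin 3 → ℂ), f x = 0 → e x = e' x * c → x ≠ 0 → jac3 f e e' x ≠ 0)
    (hg2 : ∀ᶠ x in 𝓝 (0 : Fin 3 → ℂ), f x = 0 → e x = e' x * c → x ≠ 0 → pd 2 f x ≠ 0)
    {γ : ℂ → Fin 3 → ℂ} (hγ : AnalyticAt ℂ γ 0) (γ0 : γ 0 = 0)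
    (hmem : ∀ᶠ s in 𝓝[≠] (0 : ℂ), f (γ s) = 0 ∧ e (γ s) = e' (γ s) * c ∧ γ s ≠ 0)
    (hne : ¬ ∀ᶠ s in 𝓝 (0 : ℂ), e' (γ s) = 0) :
    (¬ ∀ᶠ s in 𝓝 (0 : ℂ), jac3 f e e' (γ s) = 0) ∧
      (H941.ordA (jac3 f e e') γ : ℝ) ≤ (2 + 1 / m) * H941.ordA e' γ := by
  have ah : AnalyticAt ℂ (fun s => e' (γ s)) 0 := AnalyticAt.comp_of_eq he' hγ γ0
  have aj : AnalyticAt ℂ (fun s => jac3 f e e' (γ s)) 0 :=
    AnalyticAt.comp_of_eq (g := jac3 f e e') (f := γ) hJ hγ γ0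
  have htend : Tendsto γ (𝓝[≠] 0) (𝓝 0) := by
    have := hγ.continuousAt.tendsto
    rw [γ0] at this
    exact this.mono_left nhdsWithin_le_nhds
  have hJne : ∀ᶠ s in 𝓝[≠] (0 : ℂ), jac3 f e e' (γ s) ≠ 0 := by
    filter_upwards [htend.eventually hg1, hmem] with s hs1 hs2
    exact hs1 hs2.1 hs2.2.1 hs2.2.2
  have hPne : ∀ᶠ s in 𝓝[≠] (0 : ℂ), pd 2 f (γ s) ≠ 0 := by
    filter_upwards [htend.eventually hg2, hmem] with s hs1 hs2
    exact hs1 hs2.1 hs2.2.1 hs2.2.2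
  have hJn : ¬ ∀ᶠ s in 𝓝 (0 : ℂ), jac3 f e e' (γ s) = 0 := by
    intro h
    obtain ⟨s, hs⟩ := (hJne.and (h.filter_mono nhdsWithin_le_nhds)).exists
    exact hs.1 hs.2
  refine ⟨hJn, ?_⟩
  have ofin : analyticOrderAt (fun s => jac3 f e e' (γ s)) 0 ≠ ⊤ := by
    rwa [Ne, analyticOrderAt_eq_top]
  have nfin : analyticOrderAt (fun s => e' (γ s)) 0 ≠ ⊤ := by
    rwa [Ne, analyticOrderAt_eq_top]
  have ho : analyticOrderAt (fun s => jac3 f e e' (γ s)) 0 = (H941.ordA (jac3 f e e') γ : ℕ) :=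
    (ENat.natCast_toNat ofin).symm
  have hn : analyticOrderAt (fun s => e' (γ s)) 0 = (H941.ordA e' γ : ℕ) :=
    (ENat.natCast_toNat nfin).symm
  have n0 : H941.ordA e' γ ≠ 0 := by
    intro h
    rw [h, Nat.cast_zero, ah.analyticOrderAt_eq_zero] at hn
    exact hn (by rw [γ0, e0'])
  have hk : ∀ n : ℕ, 0 < m * (1 - 1 / ((n : ℝ) + 2)) := by
    intro n
    have h1 : 1 / ((n : ℝ) + 2) < 1 := by
      rw [div_lt_one (by positivity)]
      have : (0 : ℝ) ≤ n := n.cast_nonneg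
      linarith
    exact mul_pos hm (by linarith)
  have hlt : ∀ n : ℕ, (H941.ordA (jac3 f e e') γ : ℝ) ≤
      (2 + 1 / (m * (1 - 1 / ((n : ℝ) + 2)))) * H941.ordA e' γ := by
    intro n
    obtain ⟨Γ, hΓi, hΓ'⟩ := hΓ n
    refine (branch_bound ah aj hn ho n0 (Γ := Γ) ?_ hΓi).le
    filter_upwards [htend.eventually hΓ', hmem, hJne, hPne] with s hs1 hs2 hs3 hs4
    exact hs1 hs2.1 hs4 hs3 hs2.2.1
  have hlim : Tendsto (fun n : ℕ => (2 + 1 / (m * (1 - 1 / ((n : ℝ) + 2)))) *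
      (H941.ordA e' γ : ℝ)) atTop (𝓝 ((2 + 1 / (m * (1 - 0))) * (H941.ordA e' γ : ℝ))) := by
    have h1 : Tendsto (fun n : ℕ => 1 / ((n : ℝ) + 2)) atTop (𝓝 0) := by
      have h2 : Tendsto (fun n : ℕ => (n : ℝ) + 2) atTop atTop :=
        tendsto_atTop_add_const_right _ _ tendsto_natCast_atTop_atTop
      have h3 := tendsto_inv_atTop_zero.comp h2
      simpa only [one_div, Function.comp_def] using h3
    have h3 : Tendsto (fun n : ℕ => m * (1 - 1 / ((n : ℝ) + 2))) atTop (𝓝 (m * (1 - 0))) :=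
      (tendsto_const_nhds.sub h1).const_mul m
    have h4 : m * (1 - 0) ≠ 0 := by
      rw [sub_zero, mul_one]
      exact hm.ne'
    exact (tendsto_const_nhds.add (tendsto_const_nhds.div h3 h4)).mul tendsto_const_nhds
  rw [sub_zero, mul_one] at hlim
  exact ge_of_tendsto' hlim hlt

/-- **Lemma B.** -/
theorem lemB1 {f e e' : (Fin 3 → ℂ) → ℂ} {μ D : ℕ} {m : ℝ} (hf : Hol f) (he : Hol e)
    (he' : Hol e') (f0 : f 0 = 0) (e0 : e 0 = 0) (e0' : e' 0 = 0) (d0 : ∀ i, pd i f 0 = 0)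
    (hμ : Milnor f μ) (hz : ∃ᶠ z in 𝓝 (0 : ℂ), f ![0, 0, z] ≠ 0) (hD : Colength ![f, e, e'] D)
    (hm : 0 < m) (hI : ∀ k, k < m → 0 < k → InI f k e') :
    ∃ c : ℂ, ∃ j : ℕ, Colength ![f, fun x => e x + c * e' x, jac3 f e e'] j ∧
      (j : ℝ) ≤ (2 + 1 / m) * D := by
  have hJ : Hol (jac3 f e e') := H137.hol_jac3 hf he he'
  have hP : Hol (pd 2 f) := H967.hol_pd3 hf 2
  -- a small ball
  obtain ⟨r₁, hr₁, h1⟩ := H967.exists_ball hf
  obtain ⟨r₂, hr₂, h2⟩ := H967.exists_ball he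
  obtain ⟨r₃, hr₃, h3⟩ := H967.exists_ball he'
  obtain ⟨r₄, hr₄, h4⟩ := exists_noVert hf hz
  obtain ⟨r₅, hr₅, h5⟩ := crit_isolated hf d0 hμ
  obtain ⟨r, hr, hrr⟩ : ∃ r : ℝ, 0 < r ∧ r ≤ r₁ ∧ r ≤ r₂ ∧ r ≤ r₃ ∧ r ≤ r₄ ∧ r ≤ r₅ := by
    refine ⟨min (min r₁ r₂) (min r₃ (min r₄ r₅)), by positivity, ?_, ?_, ?_, ?_, ?_⟩
    · exact (min_le_left _ _).trans (min_le_left _ _)
    · exact (min_le_left _ _).trans (min_le_right _ _)
    · exact (min_le_right _ _).trans (min_le_left _ _)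
    · exact (min_le_right _ _).trans ((min_le_right _ _).trans (min_le_left _ _))
    · exact (min_le_right _ _).trans ((min_le_right _ _).trans (min_le_right _ _))
  obtain ⟨l1, l2, l3, l4, l5⟩ := hrr
  have hΩ : IsOpen (ball (0 : Fin 3 → ℂ) r) := isOpen_ball
  have af : AnalyticOnNhd ℂ f (ball (0 : Fin 3 → ℂ) r) := fun x hx =>
    h1 x (ball_subset_ball l1 hx)
  have ae : AnalyticOnNhd ℂ e (ball (0 : Fin 3 → ℂ) r) := fun x hx =>
    h2 x (ball_subset_ball l2 hx)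
  have ae' : AnalyticOnNhd ℂ e' (ball (0 : Fin 3 → ℂ) r) := fun x hx =>
    h3 x (ball_subset_ball l3 hx)
  have hJae : ∀ᵐ q : ℂ × ℂ, ∀ x ∈ ball (0 : Fin 3 → ℂ) r, x ≠ 0 → f x = 0 → e x = q.1 →
      e' x = q.2 → jac3 f e e' x ≠ 0 := by
    filter_upwards [H373.ae_fibre hΩ af ae ae' 0] with q hq x hx hx0 h6 h7 h8
    exact (hq x hx h6 h7 h8).resolve_left (h5 x (ball_subset_ball l5 hx) hx0)
  have hPae : ∀ᵐ q : ℂ × ℂ, ∀ x ∈ ball (0 : Fin 3 → ℂ) r, x ≠ 0 → f x = 0 → e x = q.1 →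
      e' x = q.2 → pd 2 f x ≠ 0 := by
    filter_upwards [thin hΩ af (h4 r l4) ae ae'] with q hq x hx hx0 h6 h7 h8
    exact (hq x hx h6 h7 h8).resolve_left (h5 x (ball_subset_ball l5 hx) hx0)
  have hk : ∀ n : ℕ, m * (1 - 1 / ((n : ℝ) + 2)) < m ∧ 0 < m * (1 - 1 / ((n : ℝ) + 2)) := by
    intro n
    have h6 : 0 < 1 / ((n : ℝ) + 2) := by positivity
    have h7 : 1 / ((n : ℝ) + 2) < 1 := by
      rw [div_lt_one (by positivity)]
      have : (0 : ℝ) ≤ n := n.cast_nonneg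
      linarith
    constructor
    · nlinarith
    · exact mul_pos hm (by linarith)
  have hlines := ae_all_iff.2 fun n : ℕ => ae_lines hf he (hI _ (hk n).1 (hk n).2)
  obtain ⟨c, hc1, hc2, hc3⟩ := (hlines.and ((ae_generic hf he he' hJ e0' hD hr hJae).and
    (ae_generic hf he he' hP e0' hD hr hPae))).exists
  -- the curve `e = c e'`
  set ec : (Fin 3 → ℂ) → ℂ := fun x => e x + -c * e' x with hecd
  have hec : Hol ec := AnalyticAt.add he (AnalyticAt.mul analyticAt_const he')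
  have ec0 : ec 0 = 0 := by
    simp only [hecd, e0, e0', mul_zero, add_zero]
  have hD' : Colength ![f, ec, e'] D := colength_shear hf he he' (-c) hD
  have heq : ∀ x, ec x = 0 ↔ e x = e' x * c := by
    intro x
    rw [hecd]
    constructor
    · intro h
      have h' : e x + -c * e' x = 0 := h
      linear_combination h'
    · intro h
      change e x + -c * e' x = 0
      rw [h]
      ring
  have hjac : ∀ᶠ x in 𝓝 (0 : Fin 3 → ℂ), jac3 f ec e' x = jac3 f e e' x := by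
    filter_upwards [he.eventually_analyticAt, he'.eventually_analyticAt] with x hx hx'
    have h6 : ∀ i, pd i ec x = pd i e x + -c * pd i e' x := by
      intro i
      unfold pd
      rw [hecd, fderiv_fun_add hx.differentiableAt (hx'.differentiableAt.const_mul _),
        fderiv_const_mul hx'.differentiableAt]
      rfl
    rw [H137.jac3_eq, H137.jac3_eq]
    simp only [minor2, h6]
    ring
  have hxi0 : H462.xi f ec 0 = 0 := by
    funext i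
    fin_cases i <;> simp [H462.xi, minor2, d0]
  have hxi : ∀ᶠ x in 𝓝 (0 : Fin 3 → ℂ), f x = 0 → ec x = 0 → x ≠ 0 → H462.xi f ec x ≠ 0 := by
    filter_upwards [hc2, hjac] with x hx hjx hx1 hx2 hx3 hcon
    refine hx hx1 ((heq x).1 hx2) hx3 ?_
    rw [← hjx, ← H941.fderiv_xi, hcon, map_zero]
  obtain ⟨k, γ, cc, u, R, hkpos, B, -, hform⟩ :=
    H941.exists_branches' hf hec f0 ec0 hxi0 hxi he' e0' hD'
  have hne' := (hform e' he').1.1 ⟨D, hD'⟩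
  have hDsum : D = ∑ i, H941.ordA e' (γ i) :=
    H137.colength_unique (H137.hol_three hf hec he') hD' ((hform e' he').2 hne').1
  have hbr : ∀ i, (¬ ∀ᶠ s in 𝓝 (0 : ℂ), jac3 f e e' (γ i s) = 0) ∧
      (H941.ordA (jac3 f e e') (γ i) : ℝ) ≤ (2 + 1 / m) * H941.ordA e' (γ i) := by
    intro i
    refine branch_le hm he' hJ e0' hc1 hc2 hc3 (B.hol i 0 (mem_ball_self B.pos)) (B.zero i) ?_
      (hne' i)
    filter_upwards [self_mem_nhdsWithin, mem_nhdsWithin_of_mem_nhds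
      (ball_mem_nhds (0 : ℂ) B.pos)] with s hs hsR
    obtain ⟨g1, g2⟩ := B.mem i s hsR
    refine ⟨g1, (heq _).1 g2, fun h => ?_⟩
    rcases B.inj i i s hsR 0 (mem_ball_self B.pos) (by rw [h, B.zero]) with h6 | h6
    · exact hs h6.1
    · exact hs h6.2
  refine ⟨-c, ∑ i, H941.ordA (jac3 f e e') (γ i),
    ((hform _ hJ).2 fun i => (hbr i).1).1, ?_⟩
  rw [hDsum]
  push_cast
  rw [Finset.mul_sum]
  exact Finset.sum_le_sum fun i _ => (hbr i).2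

/-- **Lemma B**, the form used in the endgame. -/
theorem lemBOut : LemBOut := fun _ _ _ _ _ _ hf he he' f0 e0 e0' d0 hμ hz hD hm hI =>
  lemB1 hf he he' f0 e0 e0' d0 hμ hz hD hm fun k h1 h2 => (hI k h1 h2).2

end Vale.Agent.P298.H740
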